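import Crest.Agent.R330.IA1

/-! # Row 330, G/A (statements frozen; see `R330/Blueprint.lean`) -/

set_option autoImplicit false
set_option linter.unusedSectionVars false

noncomputable section

open MeasureTheory Filter Topology
open scoped InnerProductSpace ContDiff Matrix

namespace Crest.Agent.R330

variable {Y Θ F : Type} [NormedAddCommGroup Y] [InnerProductSpace ℝ Y] [FiniteDimensional ℝ Y]
  [MeasurableSpace Y] [BorelSpace Y]
  [NormedAddCommGroup Θ] [InnerProductSpace ℝ Θ] [FiniteDimensional ℝ Θ]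
  [NormedAddCommGroup F] [InnerProductSpace ℂ F] [FiniteDimensional ℂ F]

/-! ### G1: pointwise calculus -/

theorem dirac_eq_sum (C : Cl Θ F) (c : Y →ₗ[ℝ] Θ) (w : Y → Θ) (ψ : Y → F) (x : Y) {ι : Type}
    [Fintype ι] (b : OrthonormalBasis ι ℝ Y) :
    dirac C c w ψ x = (∑ i, (-Complex.I) • C.θ (c (b i)) (fderiv ℝ ψ x (b i))) + C.θ (w x) (ψ x) := by
  unfold dirac
  congr 1
  exact sum_onb (LinearMap.mk₂ ℝ (fun u v => (-Complex.I) • C.θ (c u) (fderiv ℝ ψ x v))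
    (fun _ _ _ => by simp) (fun r _ _ => by simp [smul_comm r])
    (fun _ _ _ => by simp) (fun r _ _ => by simp [smul_comm r])) _ b

theorem ga_split : ∃ (N : ℕ) (L : Fin N × Bool → F →L[ℝ] ℝ), ∀ u : F, ‖u‖ ^ 2 = ∑ k, L k u ^ 2 := by
  refine ⟨_, fun k => (if k.2 then Complex.reCLM else Complex.imCLM).comp
    ((innerSL ℂ (stdOrthonormalBasis ℂ F k.1)).restrictScalars ℝ), fun u => ?_⟩
  rw [← (stdOrthonormalBasis ℂ F).sum_sq_norm_inner_right, Fintype.sum_prod_type]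
  refine Finset.sum_congr rfl fun k _ => ?_
  rw [Complex.sq_norm, Complex.normSq_apply]
  simp [sq]

theorem ga_hs {κ : Type} [Fintype κ] {L : κ → F →L[ℝ] ℝ} (hL : ∀ u : F, ‖u‖ ^ 2 = ∑ k, L k u ^ 2)
    {Y' : Type} [NormedAddCommGroup Y'] [InnerProductSpace ℝ Y'] (D : Y' →L[ℝ] F) {ι : Type} [Fintype ι]
    (b : OrthonormalBasis ι ℝ Y') : ∑ i, ‖D (b i)‖ ^ 2 = ∑ k, ‖(L k).comp D‖ ^ 2 := by
  simp only [hL, b.norm_dual]
  exact Finset.sum_comm

theorem gsq_eq_sum (ψ : Y → F) (x : Y) {ι : Type} [Fintype ι] (b : OrthonormalBasis ι ℝ Y) :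
    gsq ψ x = ∑ i, ‖fderiv ℝ ψ x (b i)‖ ^ 2 := by
  obtain ⟨N, L, hL⟩ := ga_split (F := F)
  rw [gsq, ga_hs hL, ga_hs hL]

theorem norm_fderiv_apply_sq_le (ψ : Y → F) (x v : Y) :
    ‖fderiv ℝ ψ x v‖ ^ 2 ≤ gsq ψ x * ‖v‖ ^ 2 := by
  obtain ⟨N, L, hL⟩ := ga_split (F := F)
  rw [gsq, ga_hs hL, hL, Finset.sum_mul]
  refine Finset.sum_le_sum fun k _ => ?_
  rw [← mul_pow, ← sq_abs]
  exact pow_le_pow_left₀ (abs_nonneg _) (((L k).comp (fderiv ℝ ψ x)).le_opNorm v) 2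

/-- Contraction does not increase the gradient: `Σ ‖∂_{A e} ψ‖² ≤ a² |∇ψ|²` for `A : Y' → Y`. -/
theorem sum_fderiv_map_sq_le {Y' : Type} [NormedAddCommGroup Y'] [InnerProductSpace ℝ Y']
    [FiniteDimensional ℝ Y'] (ψ : Y → F) (x : Y) (A : Y' →ₗ[ℝ] Y) (a : ℝ)
    (hA : ∀ v, ‖A v‖ ≤ a * ‖v‖) :
    ∑ i, ‖fderiv ℝ ψ x (A (stdOrthonormalBasis ℝ Y' i))‖ ^ 2 ≤ a ^ 2 * gsq ψ x := by
  obtain ⟨N, L, hL⟩ := ga_split (F := F)
  refine (ga_hs hL ((fderiv ℝ ψ x).comp (LinearMap.toContinuousLinearMap A)) _).trans_le ?_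
  rw [gsq, ga_hs hL, Finset.mul_sum]
  refine Finset.sum_le_sum fun k _ => ?_
  rw [← sq_abs a, ← mul_pow]
  refine pow_le_pow_left₀ (norm_nonneg _)
    (ContinuousLinearMap.opNorm_le_bound _ (by positivity) fun v => ?_) 2
  refine (((L k).comp (fderiv ℝ ψ x)).le_opNorm (A v)).trans ?_
  rw [mul_comm |a|, mul_assoc]
  exact mul_le_mul_of_nonneg_left
    ((hA v).trans (mul_le_mul_of_nonneg_right (le_abs_self a) (norm_nonneg v))) (norm_nonneg _)

theorem dirac_add (C : Cl Θ F) (c : Y →ₗ[ℝ] Θ) (w : Y → Θ) {φ ψ : Y → F} {x : Y}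
    (hφ : DifferentiableAt ℝ φ x) (hψ : DifferentiableAt ℝ ψ x) :
    dirac C c w (φ + ψ) x = dirac C c w φ x + dirac C c w ψ x := by
  simp only [dirac, fderiv_add hφ hψ, add_apply, map_add, smul_add, Finset.sum_add_distrib, Pi.add_apply]
  abel

theorem dirac_sub (C : Cl Θ F) (c : Y →ₗ[ℝ] Θ) (w : Y → Θ) {φ ψ : Y → F} {x : Y}
    (hφ : DifferentiableAt ℝ φ x) (hψ : DifferentiableAt ℝ ψ x) :
    dirac C c w (φ - ψ) x = dirac C c w φ x - dirac C c w ψ x := by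
  simp only [dirac, fderiv_sub hφ hψ, sub_apply, map_sub, smul_sub, Finset.sum_sub_distrib, Pi.sub_apply]
  abel

theorem dirac_csmul (C : Cl Θ F) (c : Y →ₗ[ℝ] Θ) (w : Y → Θ) (a : ℂ) (ψ : Y → F) (x : Y) :
    dirac C c w (a • ψ) x = a • dirac C c w ψ x := by
  simp only [dirac, fderiv_const_smul_field, Pi.smul_apply, smul_apply, map_smul, smul_add,
    Finset.smul_sum, smul_comm a]

theorem dirac_add_pot (C : Cl Θ F) (c : Y →ₗ[ℝ] Θ) (w w' : Y → Θ) (ψ : Y → F) (x : Y) :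
    dirac C c (fun y => w y + w' y) ψ x = dirac C c w ψ x + C.θ (w' x) (ψ x) := by
  simp only [dirac, map_add, add_apply, add_assoc]

theorem ga_fderiv {χ : Y → ℝ} {ψ : Y → F} {x : Y} (hχ : DifferentiableAt ℝ χ x)
    (hψ : DifferentiableAt ℝ ψ x) (v : Y) : fderiv ℝ (fun y => (χ y : ℂ) • ψ y) x v =
      (χ x : ℂ) • fderiv ℝ ψ x v + (fderiv ℝ χ x v : ℂ) • ψ x := by
  simp only [Complex.coe_smul]
  rw [fderiv_fun_smul hχ hψ]
  rfl

/-- Leibniz rule for a real scalar factor. -/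
theorem dirac_smul (C : Cl Θ F) (c : Y →ₗ[ℝ] Θ) (w : Y → Θ) {χ : Y → ℝ} {ψ : Y → F} {x : Y}
    (hχ : DifferentiableAt ℝ χ x) (hψ : DifferentiableAt ℝ ψ x) :
    dirac C c w (fun y => (χ y : ℂ) • ψ y) x =
      (χ x : ℂ) • dirac C c w ψ x - Complex.I • C.θ (c (gradient χ x)) (ψ x) := by
  have hg : gradient χ x = ∑ i, fderiv ℝ χ x (stdOrthonormalBasis ℝ Y i) • stdOrthonormalBasis ℝ Y i := by
    conv_lhs => rw [← (stdOrthonormalBasis ℝ Y).sum_repr' (gradient χ x)]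
    simp only [real_inner_comm (gradient χ x), inner_gradient_left]
  simp only [dirac, ga_fderiv hχ hψ, hg, map_sum, map_add, map_smul, sum_apply, smul_apply, smul_add,
    Finset.sum_add_distrib, Finset.smul_sum, ← Complex.coe_smul, smul_comm (-Complex.I) (χ x : ℂ),
    neg_smul, Finset.sum_neg_distrib, smul_neg]
  abel

/-- A constant operator anticommuting with all `θ` anticommutes with `Q`. -/
theorem dirac_par (C : Cl Θ F) (c : Y →ₗ[ℝ] Θ) (w : Y → Θ) {Γ : F →L[ℂ] F}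
    (hΓ : ∀ v, Γ * C.θ v = -(C.θ v * Γ)) {ψ : Y → F} {x : Y} (hψ : DifferentiableAt ℝ ψ x) :
    dirac C c w (fun y => Γ (ψ y)) x = -Γ (dirac C c w ψ x) := by
  have h1 : ∀ v, fderiv ℝ (fun y => Γ (ψ y)) x v = Γ (fderiv ℝ ψ x v) := fun v =>
    congrArg (fun T : Y →L[ℝ] F => T v) ((Γ.restrictScalars ℝ).hasFDerivAt.comp x hψ.hasFDerivAt).fderiv
  have h2 : ∀ v a, C.θ v (Γ a) = -Γ (C.θ v a) := fun v a => by
    have := congrArg (fun T : F →L[ℂ] F => T a) (hΓ v)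
    exact (neg_eq_iff_eq_neg.2 this).symm
  simp only [dirac, h1, h2, map_add, map_sum, map_smul, smul_neg, Finset.sum_neg_distrib, neg_add]

theorem norm_dirac_le (C : Cl Θ F) (c : Y →ₗ[ℝ] Θ) (hc : ∀ v, ‖c v‖ = ‖v‖) (w : Y → Θ)
    (ψ : Y → F) (x : Y) :
    ‖dirac C c w ψ x‖ ^ 2 ≤ (Module.finrank ℝ Y : ℝ) * gsq ψ x + ‖w x‖ ^ 2 * ‖ψ x‖ ^ 2 := by
  have h1 := sq_sum_le_card_mul_sum_sq (s := Finset.univ) (f := fun i =>
    ‖(-Complex.I) • C.θ (c (stdOrthonormalBasis ℝ Y i)) (fderiv ℝ ψ x (stdOrthonormalBasis ℝ Y i))‖)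
  have h2 := pow_le_pow_left₀ (norm_nonneg _) (norm_sum_le Finset.univ fun i =>
    (-Complex.I) • C.θ (c (stdOrthonormalBasis ℝ Y i)) (fderiv ℝ ψ x (stdOrthonormalBasis ℝ Y i))) 2
  have h3 : ∑ i, ‖(-Complex.I) • C.θ (c (stdOrthonormalBasis ℝ Y i))
      (fderiv ℝ ψ x (stdOrthonormalBasis ℝ Y i))‖ ^ 2 = 1 / 2 * gsq ψ x := by
    rw [gsq, Finset.mul_sum]
    refine Finset.sum_congr rfl fun i _ => ?_
    rw [norm_smul, norm_neg, Complex.norm_I, one_mul, C.norm_θ_sq, hc,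
      (stdOrthonormalBasis ℝ Y).orthonormal.1 i, one_pow]
  rw [h3, Finset.card_univ, Fintype.card_fin] at h1
  have h4 := C.norm_θ_sq (w x) (ψ x)
  unfold dirac
  refine (pow_le_pow_left₀ (norm_nonneg _) (norm_add_le _ _) 2).trans (add_sq_le.trans ?_)
  linarith

/-- Pointwise IMS localisation formula. -/
theorem ims (C : Cl Θ F) (c : Y →ₗ[ℝ] Θ) (hc : ∀ v, ‖c v‖ = ‖v‖) (w : Y → Θ) {f g : Y → ℝ}
    {ψ : Y → F} {x : Y} (hf : DifferentiableAt ℝ f x) (hg : DifferentiableAt ℝ g x)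
    (hfg : ∀ᶠ y in 𝓝 x, f y ^ 2 + g y ^ 2 = 1) (hψ : DifferentiableAt ℝ ψ x) :
    ‖dirac C c w (fun y => (f y : ℂ) • ψ y) x‖ ^ 2 + ‖dirac C c w (fun y => (g y : ℂ) • ψ y) x‖ ^ 2 =
      ‖dirac C c w ψ x‖ ^ 2 + 1 / 2 * (‖gradient f x‖ ^ 2 + ‖gradient g x‖ ^ 2) * ‖ψ x‖ ^ 2 := by
  have h1 : f x ^ 2 + g x ^ 2 = 1 := hfg.self_of_nhds
  have h2 : f x • gradient f x + g x • gradient g x = 0 := by
    have h3 := ((hf.hasFDerivAt.pow 2).add (hg.hasFDerivAt.pow 2)).unique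
      ((hasFDerivAt_const (1 : ℝ) x).congr_of_eventuallyEq hfg)
    refine ext_inner_right ℝ fun v => ?_
    have h4 := congrArg (fun T : Y →L[ℝ] ℝ => T v) h3
    simp only [add_apply, smul_apply, zero_apply, smul_eq_mul, nsmul_eq_mul] at h4
    rw [inner_add_left, real_inner_smul_left, real_inner_smul_left, inner_gradient_left,
      inner_gradient_left, inner_zero_left]
    norm_num at h4
    linarith
  rw [dirac_smul C c w hf hψ, dirac_smul C c w hg hψ]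
  have ha : ∀ v : Y, ‖Complex.I • C.θ (c v) (ψ x)‖ ^ 2 = ‖v‖ ^ 2 / 2 * ‖ψ x‖ ^ 2 := fun v => by
    rw [norm_smul, Complex.norm_I, one_mul, C.norm_θ_sq, hc]
  have hab : (f x : ℂ) • (Complex.I • C.θ (c (gradient f x)) (ψ x)) +
      (g x : ℂ) • (Complex.I • C.θ (c (gradient g x)) (ψ x)) = 0 := by
    have := congrArg (fun v => Complex.I • C.θ (c v) (ψ x)) h2
    simp only [map_add, map_smul, add_apply, smul_apply, smul_add, map_zero, zero_apply, smul_zero,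
      ← Complex.coe_smul] at this
    rwa [smul_comm (f x : ℂ), smul_comm (g x : ℂ)]
  have e1 := ha (gradient f x)
  have e2 := ha (gradient g x)
  generalize Complex.I • C.θ (c (gradient f x)) (ψ x) = a at *
  generalize Complex.I • C.θ (c (gradient g x)) (ψ x) = b at *
  generalize dirac C c w ψ x = q
  have h5 := congrArg (fun z => (⟪q, z⟫_ℂ).re) hab
  simp only [inner_add_right, inner_smul_right, Complex.add_re, Complex.re_ofReal_mul, inner_zero_right,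
    Complex.zero_re] at h5
  rw [norm_sub_sq (𝕜 := ℂ), norm_sub_sq (𝕜 := ℂ), e1, e2]
  simp only [norm_smul, Complex.norm_real, Real.norm_eq_abs, mul_pow, sq_abs, inner_smul_left,
    Complex.conj_ofReal, RCLike.re_to_complex, Complex.re_ofReal_mul]
  linear_combination ‖q‖ ^ 2 * h1 - 2 * h5

theorem ga_supp (C : Cl Θ F) (c : Y →ₗ[ℝ] Θ) (w : Y → Θ) (ψ : Y → F) :
    Function.support (dirac C c w ψ) ⊆ tsupport ψ := fun x hx => by
  by_contra h
  apply hx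
  simp [dirac, fderiv_of_notMem_tsupport ℝ h, image_eq_zero_of_notMem_tsupport h]

theorem Core.dirac (C : Cl Θ F) (c : Y →ₗ[ℝ] Θ) {w : Y → Θ} (hw : ContDiff ℝ ∞ w) {ψ : Y → F}
    (hψ : Core ψ) : Core (dirac C c w ψ) := by
  refine ⟨ContDiff.add (ContDiff.sum fun i _ => ContDiff.const_smul _ ?_) ?_, hψ.2.mono' (ga_supp C c w ψ)⟩
  · exact ((C.θ _).restrictScalars ℝ).contDiff.comp
      ((hψ.1.fderiv_right (m := ∞) le_rfl).clm_apply contDiff_const)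
  · exact ((ContinuousLinearMap.restrictScalarsL ℂ F F ℝ ℝ).contDiff.comp
      (C.contDiff_θ.comp hw)).clm_apply hψ.1

theorem tsupport_dirac_subset (C : Cl Θ F) (c : Y →ₗ[ℝ] Θ) (w : Y → Θ) (ψ : Y → F) :
    tsupport (dirac C c w ψ) ⊆ tsupport ψ := by
  exact closure_minimal (ga_supp C c w ψ) (isClosed_tsupport ψ)

/-- Multiplying a core function by a function smooth near its support. -/
theorem Core.smul_of_contDiffOn {ψ : Y → F} (hψ : Core ψ) {χ : Y → ℝ} {U : Set Y} (hU : IsOpen U)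
    (hs : tsupport ψ ⊆ U) (hχ : ContDiffOn ℝ ∞ χ U) : Core fun y => (χ y : ℂ) • ψ y := by
  refine ⟨contDiff_iff_contDiffAt.2 fun x => ?_, hψ.2.mono fun x hx h => hx (by simp [h])⟩
  by_cases hx : x ∈ U
  · simp only [Complex.coe_smul]
    exact (hχ.contDiffAt (hU.mem_nhds hx)).smul hψ.1.contDiffAt
  · refine (contDiffAt_const (c := (0 : F))).congr_of_eventuallyEq ?_
    filter_upwards [notMem_tsupport_iff_eventuallyEq.1 fun h => hx (hs h)] with y hy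
    rw [hy, Pi.zero_apply, smul_zero]

theorem WtAt.smul {A : Y →ₗ[ℝ] Y} {S : F →L[ℂ] F} {k : ℝ} {ψ : Y → F} {χ : Y → ℝ} {x : Y}
    (h : WtAt A S k ψ x) (hψ : DifferentiableAt ℝ ψ x) (hχ : DifferentiableAt ℝ χ x)
    (h0 : fderiv ℝ χ x (A x) = 0) : WtAt A S k (fun y => (χ y : ℂ) • ψ y) x := by
  unfold WtAt at h ⊢
  rw [ga_fderiv hχ hψ, h0, h, map_smul, smul_add, smul_comm (χ x : ℂ) ((k : ℂ) * Complex.I)]
  simp

theorem WtAt.of_notMem_tsupport {A : Y →ₗ[ℝ] Y} {S : F →L[ℂ] F} {k : ℝ} {ψ : Y → F} {x : Y}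
    (hx : x ∉ tsupport ψ) : WtAt A S k ψ x := by
  simp [WtAt, fderiv_of_notMem_tsupport ℝ hx, image_eq_zero_of_notMem_tsupport hx]

end Crest.Agent.R330

end
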