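import Crest.Agent.R330.G.A

/-! # Row 330, G/B (statements frozen; see `R330/Blueprint.lean`) -/

set_option autoImplicit false
set_option linter.unusedSectionVars false

noncomputable section

open MeasureTheory Filter Topology
open scoped InnerProductSpace ContDiff Matrix

namespace Crest.Agent.R330

variable {Y Θ F : Type} [NormedAddCommGroup Y] [InnerProductSpace ℝ Y] [FiniteDimensional ℝ Y]
  [MeasurableSpace Y] [BorelSpace Y]
  [NormedAddCommGroup Θ] [InnerProductSpace ℝ Θ] [FiniteDimensional ℝ Θ]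
  [NormedAddCommGroup F] [InnerProductSpace ℂ F] [FiniteDimensional ℂ F]

theorem gb_exp (B : F →L[ℂ] F) {g : ℝ → F} {g' : F} {t : ℝ} (hg : HasDerivAt g g' t) :
    HasDerivAt (fun s : ℝ => NormedSpace.exp ((s : ℂ) • B) (g s))
      (NormedSpace.exp ((t : ℂ) • B) (B (g t) + g')) t := by
  have h1 := (hasDerivAt_exp_smul_const B (t : ℂ)).scomp t (Complex.ofRealCLM.hasDerivAt (x := t))
  have h2 := ((ContinuousLinearMap.restrictScalarsL ℂ F F ℝ ℝ).hasFDerivAt.comp_hasDerivAt t h1).clm_apply hg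
  refine h2.congr_deriv ?_
  simp

theorem gb_fderiv (R : Y →L[ℝ] Y) (U : F →L[ℂ] F) {ψ : Y → F} (hψ : Differentiable ℝ ψ)
    (h : ∀ x, ψ (R x) = U (ψ x)) (x v : Y) : fderiv ℝ ψ (R x) (R v) = U (fderiv ℝ ψ x v) := by
  have h1 := (hψ (R x)).hasFDerivAt.comp x R.hasFDerivAt
  have h2 := (U.restrictScalars ℝ).hasFDerivAt.comp x (hψ x).hasFDerivAt
  rw [show ψ ∘ R = U.restrictScalars ℝ ∘ ψ from funext h] at h1
  exact congrArg (fun L : Y →L[ℝ] F => L v) (h1.unique h2)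

theorem gb_basis (R : Y →L[ℝ] Y) (hR : ∀ x, ‖R x‖ = ‖x‖) :
    ∃ b : OrthonormalBasis (Fin (Module.finrank ℝ Y)) ℝ Y, ∀ i, b i = R (stdOrthonormalBasis ℝ Y i) :=
  ⟨(stdOrthonormalBasis ℝ Y).map ((⟨R.toLinearMap, hR⟩ : Y →ₗᵢ[ℝ] Y).toLinearIsometryEquiv rfl), fun _ => rfl⟩

/-- Infinitesimal versus finite symmetry. -/
theorem wtAt_iff_flow (A : Y →ₗ[ℝ] Y) (S : F →L[ℂ] F) (k : ℝ) {ψ : Y → F}
    (hψ : Differentiable ℝ ψ) :
    (∀ x, WtAt A S k ψ x) ↔ ∀ (t : ℝ) x, ψ (rexp' (t • A) x) =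
      NormedSpace.exp ((t : ℂ) • (S + ((k : ℂ) * Complex.I) • 1)) (ψ x) := by
  set B : F →L[ℂ] F := S + ((k : ℂ) * Complex.I) • 1 with hB
  have hd : ∀ x t, HasDerivAt (fun s : ℝ => ψ (rexp' (s • A) x))
      (fderiv ℝ ψ (rexp' (t • A) x) (A (rexp' (t • A) x))) t := fun x t =>
    (hψ _).hasFDerivAt.comp_hasDerivAt t (hasDerivAt_rexp' A x t)
  refine ⟨fun h t x => ?_, fun h x => ?_⟩
  · have h1 : ∀ s : ℝ, HasDerivAt (fun s : ℝ => NormedSpace.exp ((s : ℂ) • -B) (ψ (rexp' (s • A) x))) 0 s :=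
      fun s => (gb_exp (-B) (hd x s)).congr_deriv (by rw [h _]; simp [hB])
    have h2 := is_const_of_deriv_eq_zero (fun s => (h1 s).differentiableAt) (fun s => (h1 s).deriv) t 0
    simp only [zero_smul, rexp'_zero, Complex.ofReal_zero, NormedSpace.exp_zero,
      one_apply_eq_self] at h2
    let _ : NormedAlgebra ℚ (F →L[ℂ] F) := .restrictScalars ℚ ℂ _
    rw [← h2, ← mul_apply_eq_comp, smul_neg,
      ← NormedSpace.exp_add_of_commute (Commute.refl _).neg_right]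
    simp
  · have h1 := hd x 0
    simp only [h] at h1
    have h2 := h1.unique (gb_exp B (hasDerivAt_const 0 (ψ x)))
    simpa [WtAt, rexp'_zero, hB] using h2

/-- A function invariant under the flow has zero derivative along the generator. -/
theorem fderiv_eq_zero_of_flow (A : Y →ₗ[ℝ] Y) {χ : Y → ℝ} {x : Y} (hχ : DifferentiableAt ℝ χ x)
    (h : ∀ t : ℝ, χ (rexp' (t • A) x) = χ x) : fderiv ℝ χ x (A x) = 0 := by
  have h0 : HasFDerivAt χ (fderiv ℝ χ x) (rexp' ((0 : ℝ) • A) x) := by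
    rw [zero_smul, rexp'_zero]; exact hχ.hasFDerivAt
  have h1 := h0.comp_hasDerivAt 0 (hasDerivAt_rexp' A x 0)
  rw [show (χ ∘ fun s : ℝ => rexp' (s • A) x) = fun _ => χ x from funext h, zero_smul, rexp'_zero] at h1
  exact h1.unique (hasDerivAt_const _ _)

/-- `Q` commutes with a compatible isometric symmetry. -/
theorem dirac_equivariant (C : Cl Θ F) (c : Y →ₗ[ℝ] Θ) (w : Y → Θ) (R : Y →L[ℝ] Y)
    (U : F →L[ℂ] F) (hR : ∀ x, ‖R x‖ = ‖x‖) (hc : ∀ x, U * C.θ (c x) = C.θ (c (R x)) * U)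
    (hw : ∀ x, U * C.θ (w x) = C.θ (w (R x)) * U) {ψ : Y → F} (hψ : Differentiable ℝ ψ)
    (h : ∀ x, ψ (R x) = U (ψ x)) (x : Y) : dirac C c w ψ (R x) = U (dirac C c w ψ x) := by
  obtain ⟨b, hb⟩ := gb_basis R hR
  rw [dirac_eq_sum C c w ψ (R x) b, dirac, map_add, map_sum, h]
  congr 1
  · refine Finset.sum_congr rfl fun i _ => ?_
    rw [hb, gb_fderiv R U hψ h, map_smul]
    exact congrArg (fun L : F →L[ℂ] F => (-Complex.I) • L _) (hc _).symm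
  · exact congrArg (fun L : F →L[ℂ] F => L _) (hw _).symm

theorem DS.dirac {C : Cl Θ F} {c : Y →ₗ[ℝ] Θ} {w : Y → Θ} (hw : ContDiff ℝ ∞ w) {𝒮 : Syms Y F}
    (h𝒮 : SymOK 𝒮) (hC : Compat C c w 𝒮) {ψ : Y → F} (hψ : DS 𝒮 ψ) : DS 𝒮 (dirac C c w ψ) := by
  exact ⟨hψ.1.dirac C c hw, fun p hp x => dirac_equivariant C c w p.1 p.2 (h𝒮 p hp).1 (hC p hp).1 (hC p hp).2
    (hψ.1.1.differentiable (by simp)) (hψ.2 p hp) x⟩

theorem gsq_equivariant (R : Y →L[ℝ] Y) (U : F →L[ℂ] F) (hR : ∀ x, ‖R x‖ = ‖x‖)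
    (hU : ∀ v, ‖U v‖ = ‖v‖) {ψ : Y → F} (hψ : Differentiable ℝ ψ) (h : ∀ x, ψ (R x) = U (ψ x))
    (x : Y) : gsq ψ (R x) = gsq ψ x := by
  obtain ⟨b, hb⟩ := gb_basis R hR
  rw [gsq_eq_sum ψ (R x) b, gsq]
  exact Finset.sum_congr rfl fun i _ => by rw [hb, gb_fderiv R U hψ h, hU]

end Crest.Agent.R330

end
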