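import Crest.Agent.R330.G.A

/-! # Row 330, G/C (statements frozen; see `R330/Blueprint.lean`) -/

set_option autoImplicit false
set_option linter.unusedSectionVars false

noncomputable section

open MeasureTheory Filter Topology
open scoped InnerProductSpace ContDiff Matrix

namespace Crest.Agent.R330

variable {Y Θ F : Type} [NormedAddCommGroup Y] [InnerProductSpace ℝ Y] [FiniteDimensional ℝ Y]
  [MeasurableSpace Y] [BorelSpace Y]
  [NormedAddCommGroup Θ] [InnerProductSpace ℝ Θ] [FiniteDimensional ℝ Θ]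
  [NormedAddCommGroup F] [InnerProductSpace ℂ F] [FiniteDimensional ℂ F]

/-- The map `v ↦ θ v` as a continuous real-linear map. -/
def GC_θL (C : Cl Θ F) : Θ →L[ℝ] (F →L[ℝ] F) :=
  LinearMap.toContinuousLinearMap
    { toFun := fun v => (C.θ v).restrictScalars ℝ
      map_add' := fun u v => by ext a; simp
      map_smul' := fun r v => by ext a; simp }

theorem GC_θL_apply (C : Cl Θ F) (v : Θ) (a : F) : GC_θL C v a = C.θ v a := rfl

theorem GC_hasFDerivAt_θ (C : Cl Θ F) {k : Y → Θ} {ψ : Y → F} {x : Y}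
    (hk : DifferentiableAt ℝ k x) (hψ : DifferentiableAt ℝ ψ x) :
    DifferentiableAt ℝ (fun y => C.θ (k y) (ψ y)) x ∧ ∀ v,
      fderiv ℝ (fun y => C.θ (k y) (ψ y)) x v =
        C.θ (fderiv ℝ k x v) (ψ x) + C.θ (k x) (fderiv ℝ ψ x v) := by
  have h1 : HasFDerivAt (fun y => GC_θL C (k y)) ((GC_θL C).comp (fderiv ℝ k x)) x :=
    (GC_θL C).hasFDerivAt.comp x hk.hasFDerivAt
  have h2 := h1.clm_apply hψ.hasFDerivAt
  refine ⟨h2.differentiableAt, fun v => ?_⟩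
  have h3 : (fun y => C.θ (k y) (ψ y)) = fun y => GC_θL C (k y) (ψ y) := rfl
  rw [h3, h2.fderiv]
  simp [GC_θL_apply, add_comm]

theorem GC_anti_apply (C : Cl Θ F) (u v : Θ) (a : F) :
    C.θ u (C.θ v a) + C.θ v (C.θ u a) = ((⟪u, v⟫_ℝ : ℝ) : ℂ) • a := by
  have := congrArg (fun T : F →L[ℂ] F => T a) (C.anti u v)
  simpa using this

theorem GC_sum_adjoint (c : Y →ₗ[ℝ] Θ) (u : Θ) (L : Y →L[ℝ] F) :
    ∑ i, ((⟪c (stdOrthonormalBasis ℝ Y i), u⟫_ℝ : ℝ) : ℂ) • L (stdOrthonormalBasis ℝ Y i) =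
      L (LinearMap.adjoint c u) := by
  conv_rhs => rw [← (stdOrthonormalBasis ℝ Y).sum_repr' (LinearMap.adjoint c u)]
  rw [map_sum]
  refine Finset.sum_congr rfl fun i _ => ?_
  rw [map_smul, LinearMap.adjoint_inner_right, Complex.coe_smul]

theorem GC_sum_θθ_apply (C : Cl Θ F) (c : Y →ₗ[ℝ] Θ) (L : Y →L[ℝ] Θ) (a : F) :
    ∑ i, C.θ (c (stdOrthonormalBasis ℝ Y i)) (C.θ (L (stdOrthonormalBasis ℝ Y i)) a) =
      (2 : ℂ) • C.S (c ∘ₗ LinearMap.adjoint L.toLinearMap) a := by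
  have := congrArg (fun T : F →L[ℂ] F => T a) (C.sum_θθ c L.toLinearMap)
  simpa [sum_apply] using this

theorem GC_diff_fderiv {ψ : Y → F} {x : Y} (hψ : ContDiffAt ℝ 2 ψ x) (v : Y) :
    DifferentiableAt ℝ (fun y => fderiv ℝ ψ y v) x := by
  have h1 : DifferentiableAt ℝ (fderiv ℝ ψ) x :=
    (hψ.fderiv_right (m := 1) (by norm_num)).differentiableAt (by norm_num)
  exact h1.clm_apply (differentiableAt_const v)

theorem GC_symm {ψ : Y → F} {x : Y} (hψ : ContDiffAt ℝ 2 ψ x) (u v : Y) :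
    fderiv ℝ (fun y => fderiv ℝ ψ y v) x u = fderiv ℝ (fun y => fderiv ℝ ψ y u) x v := by
  have h1 : DifferentiableAt ℝ (fderiv ℝ ψ) x :=
    (hψ.fderiv_right (m := 1) (by norm_num)).differentiableAt (by norm_num)
  have h2 : IsSymmSndFDerivAt ℝ ψ x := hψ.isSymmSndFDerivAt (by simp)
  rw [fderiv_clm_apply h1 (differentiableAt_const v), fderiv_clm_apply h1 (differentiableAt_const u)]
  simpa using h2 u v

theorem GC_fderiv_dirac (C : Cl Θ F) (c : Y →ₗ[ℝ] Θ) {w : Y → Θ} {ψ : Y → F} {x : Y}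
    (hw : DifferentiableAt ℝ w x) (hψ : ContDiffAt ℝ 2 ψ x) (v : Y) :
    fderiv ℝ (dirac C c w ψ) x v =
      (∑ j, (-Complex.I) • C.θ (c (stdOrthonormalBasis ℝ Y j))
        (fderiv ℝ (fun y => fderiv ℝ ψ y (stdOrthonormalBasis ℝ Y j)) x v)) +
        (C.θ (fderiv ℝ w x v) (ψ x) + C.θ (w x) (fderiv ℝ ψ x v)) := by
  have hψ1 : DifferentiableAt ℝ ψ x := hψ.differentiableAt (by norm_num)
  obtain ⟨hd, he⟩ := GC_hasFDerivAt_θ C hw hψ1
  have hj : ∀ j, HasFDerivAt (fun y => (-Complex.I) • C.θ (c (stdOrthonormalBasis ℝ Y j))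
      (fderiv ℝ ψ y (stdOrthonormalBasis ℝ Y j)))
      ((-Complex.I) • (GC_θL C (c (stdOrthonormalBasis ℝ Y j))).comp
        (fderiv ℝ (fun y => fderiv ℝ ψ y (stdOrthonormalBasis ℝ Y j)) x)) x := fun j =>
    ((GC_θL C (c (stdOrthonormalBasis ℝ Y j))).hasFDerivAt.comp x
      (GC_diff_fderiv hψ _).hasFDerivAt).const_smul (-Complex.I)
  have hs := (HasFDerivAt.fun_sum (u := Finset.univ) fun j _ => hj j).add hd.hasFDerivAt
  have h3 : dirac C c w ψ = (fun y => ∑ j, (-Complex.I) • C.θ (c (stdOrthonormalBasis ℝ Y j))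
      (fderiv ℝ ψ y (stdOrthonormalBasis ℝ Y j))) + fun y => C.θ (w y) (ψ y) := rfl
  rw [h3, hs.fderiv, add_apply, he]
  simp [sum_apply, GC_θL_apply]

/-- Expansion of `Q₁ Q₂ ψ`. -/
theorem GC_dirac_dirac (C : Cl Θ F) (c₁ c₂ : Y →ₗ[ℝ] Θ) (w₁ : Y → Θ) {w₂ : Y → Θ} {ψ : Y → F}
    {x : Y} (h₂ : DifferentiableAt ℝ w₂ x) (hψ : ContDiffAt ℝ 2 ψ x) :
    dirac C c₁ w₁ (dirac C c₂ w₂ ψ) x =
      -(∑ i, ∑ j, C.θ (c₁ (stdOrthonormalBasis ℝ Y i)) (C.θ (c₂ (stdOrthonormalBasis ℝ Y j))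
          (fderiv ℝ (fun y => fderiv ℝ ψ y (stdOrthonormalBasis ℝ Y j)) x
            (stdOrthonormalBasis ℝ Y i)))) -
        (2 * Complex.I) • C.S (c₁ ∘ₗ LinearMap.adjoint (fderiv ℝ w₂ x).toLinearMap) (ψ x) -
        Complex.I • (∑ i, C.θ (c₁ (stdOrthonormalBasis ℝ Y i))
          (C.θ (w₂ x) (fderiv ℝ ψ x (stdOrthonormalBasis ℝ Y i)))) -
        Complex.I • (∑ i, C.θ (w₁ x) (C.θ (c₂ (stdOrthonormalBasis ℝ Y i))
          (fderiv ℝ ψ x (stdOrthonormalBasis ℝ Y i)))) + C.θ (w₁ x) (C.θ (w₂ x) (ψ x)) := by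
  have hS := GC_sum_θθ_apply C c₁ (fderiv ℝ w₂ x) (ψ x)
  rw [dirac]
  simp only [GC_fderiv_dirac C c₂ h₂ hψ]
  rw [dirac, mul_comm (2 : ℂ), mul_smul, ← hS]
  simp only [map_add, map_sum, map_smul, smul_add, Finset.sum_add_distrib, Finset.smul_sum,
    smul_smul, neg_mul, mul_neg, Complex.I_mul_I, neg_smul, one_smul, Finset.sum_neg_distrib, map_neg,
    smul_neg, neg_neg]
  abel

/-- Anticommutator of two Dirac operators. -/
theorem dirac_anticomm (C : Cl Θ F) (c₁ c₂ : Y →ₗ[ℝ] Θ) {w₁ w₂ : Y → Θ} {ψ : Y → F} {x : Y}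
    (h₁ : DifferentiableAt ℝ w₁ x) (h₂ : DifferentiableAt ℝ w₂ x) (hψ : ContDiffAt ℝ 2 ψ x) :
    dirac C c₁ w₁ (dirac C c₂ w₂ ψ) x + dirac C c₂ w₂ (dirac C c₁ w₁ ψ) x =
      -(∑ i, ∑ j, ((⟪c₁ (stdOrthonormalBasis ℝ Y i), c₂ (stdOrthonormalBasis ℝ Y j)⟫_ℝ : ℝ) : ℂ) •
          fderiv ℝ (fun y => fderiv ℝ ψ y (stdOrthonormalBasis ℝ Y j)) x
            (stdOrthonormalBasis ℝ Y i)) -
        Complex.I • fderiv ℝ ψ x (LinearMap.adjoint c₁ (w₂ x) + LinearMap.adjoint c₂ (w₁ x)) -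
        (2 * Complex.I) • C.S (c₁ ∘ₗ LinearMap.adjoint (fderiv ℝ w₂ x).toLinearMap +
          c₂ ∘ₗ LinearMap.adjoint (fderiv ℝ w₁ x).toLinearMap) (ψ x) +
        ((⟪w₁ x, w₂ x⟫_ℝ : ℝ) : ℂ) • ψ x := by
  rw [GC_dirac_dirac C c₁ c₂ w₁ h₂ hψ, GC_dirac_dirac C c₂ c₁ w₂ h₁ hψ]
  have e1 : (∑ i, ∑ j, C.θ (c₁ (stdOrthonormalBasis ℝ Y i)) (C.θ (c₂ (stdOrthonormalBasis ℝ Y j))
        (fderiv ℝ (fun y => fderiv ℝ ψ y (stdOrthonormalBasis ℝ Y j)) x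
          (stdOrthonormalBasis ℝ Y i)))) +
      (∑ i, ∑ j, C.θ (c₂ (stdOrthonormalBasis ℝ Y i)) (C.θ (c₁ (stdOrthonormalBasis ℝ Y j))
        (fderiv ℝ (fun y => fderiv ℝ ψ y (stdOrthonormalBasis ℝ Y j)) x
          (stdOrthonormalBasis ℝ Y i)))) =
      ∑ i, ∑ j, ((⟪c₁ (stdOrthonormalBasis ℝ Y i), c₂ (stdOrthonormalBasis ℝ Y j)⟫_ℝ : ℝ) : ℂ) •
          fderiv ℝ (fun y => fderiv ℝ ψ y (stdOrthonormalBasis ℝ Y j)) x
            (stdOrthonormalBasis ℝ Y i) := by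
    rw [Finset.sum_comm (f := fun i j => C.θ (c₂ (stdOrthonormalBasis ℝ Y i))
      (C.θ (c₁ (stdOrthonormalBasis ℝ Y j))
        (fderiv ℝ (fun y => fderiv ℝ ψ y (stdOrthonormalBasis ℝ Y j)) x
          (stdOrthonormalBasis ℝ Y i)))), ← Finset.sum_add_distrib]
    refine Finset.sum_congr rfl fun i _ => ?_
    rw [← Finset.sum_add_distrib]
    refine Finset.sum_congr rfl fun j _ => ?_
    rw [GC_symm hψ (stdOrthonormalBasis ℝ Y j) (stdOrthonormalBasis ℝ Y i), GC_anti_apply]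
  have e2 : ∀ (c : Y →ₗ[ℝ] Θ) (u : Θ), (∑ i, C.θ (c (stdOrthonormalBasis ℝ Y i))
        (C.θ u (fderiv ℝ ψ x (stdOrthonormalBasis ℝ Y i)))) +
      (∑ i, C.θ u (C.θ (c (stdOrthonormalBasis ℝ Y i))
        (fderiv ℝ ψ x (stdOrthonormalBasis ℝ Y i)))) = fderiv ℝ ψ x (LinearMap.adjoint c u) := by
    intro c u
    rw [← Finset.sum_add_distrib, ← GC_sum_adjoint]
    exact Finset.sum_congr rfl fun i _ => GC_anti_apply C _ _ _
  rw [← e1, map_add, ← e2 c₁, ← e2 c₂, C.S_add, ← GC_anti_apply C (w₁ x) (w₂ x),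
    add_apply]
  simp only [smul_add]
  abel

/-- Square of a Dirac operator with isometric symbol. -/
theorem dirac_sq (C : Cl Θ F) (c : Y →ₗ[ℝ] Θ) (hc : ∀ v, ‖c v‖ = ‖v‖) {w : Y → Θ} {ψ : Y → F}
    {x : Y} (hw : DifferentiableAt ℝ w x) (hψ : ContDiffAt ℝ 2 ψ x) :
    dirac C c w (dirac C c w ψ) x =
      (-1 / 2 : ℂ) • lap ψ x - Complex.I • fderiv ℝ ψ x (LinearMap.adjoint c (w x)) -
        (2 * Complex.I) • C.S (c ∘ₗ LinearMap.adjoint (fderiv ℝ w x).toLinearMap) (ψ x) +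
        ((1 / 2 * ‖w x‖ ^ 2 : ℝ) : ℂ) • ψ x := by
  have h := dirac_anticomm C c c hw hw hψ
  have hin : ∀ u v, ⟪c u, c v⟫_ℝ = ⟪u, v⟫_ℝ := fun u v =>
    (LinearIsometry.mk c hc).inner_map_map u v
  have e1 : (∑ i, ∑ j, ((⟪c (stdOrthonormalBasis ℝ Y i), c (stdOrthonormalBasis ℝ Y j)⟫_ℝ : ℝ) : ℂ) •
      fderiv ℝ (fun y => fderiv ℝ ψ y (stdOrthonormalBasis ℝ Y j)) x
        (stdOrthonormalBasis ℝ Y i)) = lap ψ x := by
    refine Finset.sum_congr rfl fun i _ => ?_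
    rw [Finset.sum_eq_single i]
    · rw [hin, (stdOrthonormalBasis ℝ Y).inner_eq_one]; simp
    · intro j _ hj
      rw [hin, (stdOrthonormalBasis ℝ Y).inner_eq_zero (Ne.symm hj)]; simp
    · simp
  rw [e1, map_add, C.S_add, real_inner_self_eq_norm_sq, add_apply] at h
  have h2 : (2 : ℂ) • dirac C c w (dirac C c w ψ) x = (2 : ℂ) • ((-1 / 2 : ℂ) • lap ψ x -
      Complex.I • fderiv ℝ ψ x (LinearMap.adjoint c (w x)) -
        (2 * Complex.I) • C.S (c ∘ₗ LinearMap.adjoint (fderiv ℝ w x).toLinearMap) (ψ x) +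
        ((1 / 2 * ‖w x‖ ^ 2 : ℝ) : ℂ) • ψ x) := by
    rw [two_smul, h]
    push_cast
    module
  exact smul_right_injective F (two_ne_zero) h2

/-- Anticommutator of `Q` with a fermion-linear multiplication operator. -/
theorem dirac_anticomm_θ (C : Cl Θ F) (c : Y →ₗ[ℝ] Θ) (w : Y → Θ) {k : Y → Θ} {ψ : Y → F} {x : Y}
    (hk : DifferentiableAt ℝ k x) (hψ : DifferentiableAt ℝ ψ x) :
    dirac C c w (fun y => C.θ (k y) (ψ y)) x + C.θ (k x) (dirac C c w ψ x) =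
      -(Complex.I • fderiv ℝ ψ x (LinearMap.adjoint c (k x))) -
        (2 * Complex.I) • C.S (c ∘ₗ LinearMap.adjoint (fderiv ℝ k x).toLinearMap) (ψ x) +
        ((⟪w x, k x⟫_ℝ : ℝ) : ℂ) • ψ x := by
  obtain ⟨-, he⟩ := GC_hasFDerivAt_θ C hk hψ
  have hS := GC_sum_θθ_apply C c (fderiv ℝ k x) (ψ x)
  have e2 : (∑ i, C.θ (c (stdOrthonormalBasis ℝ Y i))
        (C.θ (k x) (fderiv ℝ ψ x (stdOrthonormalBasis ℝ Y i)))) +
      (∑ i, C.θ (k x) (C.θ (c (stdOrthonormalBasis ℝ Y i))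
        (fderiv ℝ ψ x (stdOrthonormalBasis ℝ Y i)))) =
      fderiv ℝ ψ x (LinearMap.adjoint c (k x)) := by
    rw [← Finset.sum_add_distrib, ← GC_sum_adjoint]
    exact Finset.sum_congr rfl fun i _ => GC_anti_apply C _ _ _
  rw [dirac, dirac, ← e2, mul_comm (2 : ℂ), mul_smul, ← hS, ← GC_anti_apply C (w x) (k x)]
  simp only [he, map_add, map_sum, map_smul, smul_add, Finset.sum_add_distrib, Finset.smul_sum,
    neg_smul, Finset.sum_neg_distrib, map_neg, neg_add_rev]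
  abel

end Crest.Agent.R330

end
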