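import Crest.Agent.R330.G.A

/-! # Row 330, G/D (statements frozen; see `R330/Blueprint.lean`) -/

set_option autoImplicit false
set_option linter.unusedSectionVars false

noncomputable section

open MeasureTheory Filter Topology
open scoped InnerProductSpace ContDiff Matrix

namespace Crest.Agent.R330

variable {Y Θ F : Type} [NormedAddCommGroup Y] [InnerProductSpace ℝ Y] [FiniteDimensional ℝ Y]
  [MeasurableSpace Y] [BorelSpace Y]
  [NormedAddCommGroup Θ] [InnerProductSpace ℝ Θ] [FiniteDimensional ℝ Θ]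
  [NormedAddCommGroup F] [InnerProductSpace ℂ F] [FiniteDimensional ℂ F]

/-! ### G2: integration by parts and integral inequalities -/

theorem Da_integrable_fderiv {W : Type} [NormedAddCommGroup W] [NormedSpace ℝ W]
    {h : Y → W} (hh : ContDiff ℝ 1 h) (hc : HasCompactSupport h) (v : Y) :
    Integrable fun x => fderiv ℝ h x v :=
  ((hh.continuous_fderiv one_ne_zero).clm_apply continuous_const).integrable_of_hasCompactSupport
    (hc.fderiv_apply ℝ v)

theorem integral_fderiv_eq_zero' {W : Type} [NormedAddCommGroup W] [NormedSpace ℝ W]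
    {h : Y → W} (hh : ContDiff ℝ 1 h) (hc : HasCompactSupport h) (v : Y) :
    ∫ x, fderiv ℝ h x v = 0 := by
  have := integral_smul_fderiv_eq_neg_fderiv_smul_of_integrable (μ := (volume : Measure Y))
    (f := fun _ : Y => (1 : ℝ)) (g := h) (v := v) (by simp)
    (by simpa using Da_integrable_fderiv hh hc v)
    (by simpa using hh.continuous.integrable_of_hasCompactSupport hc)
    (fun x _ => differentiableAt_const _) (fun x _ => hh.differentiable one_ne_zero x)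
  simpa using this

/-- A function vanishing off a compact set `K` and `C^n` on an open `U ⊇ K` is `C^n`. -/
theorem contDiff_of_support {Y' W : Type} [NormedAddCommGroup Y'] [NormedSpace ℝ Y']
    [NormedAddCommGroup W] [NormedSpace ℝ W] {n : WithTop ℕ∞} {h : Y' → W} {K U : Set Y'}
    (hK : IsClosed K) (hU : IsOpen U) (hKU : K ⊆ U) (h0 : ∀ x, x ∉ K → h x = 0)
    (hh : ContDiffOn ℝ n h U) : ContDiff ℝ n h := by
  refine contDiff_iff_contDiffAt.2 fun x => ?_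
  by_cases hx : x ∈ K
  · exact hh.contDiffAt (hU.mem_nhds (hKU hx))
  · refine (contDiffAt_const (c := (0 : W))).congr_of_eventuallyEq ?_
    filter_upwards [hK.isOpen_compl.mem_nhds hx] with y hy using h0 y hy

/-- Integration by parts along a vector field: `∫ ∂_V h = -∫ (div V) h`. -/
theorem integral_fderiv_field {W : Type} [NormedAddCommGroup W] [NormedSpace ℝ W]
    [CompleteSpace W] {h : Y → W} (hh : ContDiff ℝ 1 h) (hc : HasCompactSupport h) {V : Y → Y}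
    {U : Set Y} (hU : IsOpen U) (hs : tsupport h ⊆ U) (hV : ContDiffOn ℝ 1 V U) :
    ∫ x, fderiv ℝ h x (V x) =
      -∫ x, LinearMap.trace ℝ Y (fderiv ℝ V x).toLinearMap • h x := by
  set b := stdOrthonormalBasis ℝ Y
  set g : Fin (Module.finrank ℝ Y) → Y → W := fun i x => ⟪b i, V x⟫_ℝ • h x with hg
  have hz : ∀ x, x ∉ tsupport h → h x = 0 := fun x hx => image_eq_zero_of_notMem_tsupport hx
  have hg0 : ∀ i x, x ∉ tsupport h → g i x = 0 := fun i x hx => by simp [hg, hz x hx]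
  have hg1 : ∀ i, ContDiff ℝ 1 (g i) := fun i =>
    contDiff_of_support (isClosed_tsupport h) hU hs (hg0 i)
      ((contDiffOn_const.inner ℝ hV).smul hh.contDiffOn)
  have hgc : ∀ i, HasCompactSupport (g i) := fun i => HasCompactSupport.intro hc (hg0 i)
  have hd0 : ∀ x, x ∉ tsupport h → fderiv ℝ h x = 0 := fun x hx =>
    image_eq_zero_of_notMem_tsupport fun hx' => hx (tsupport_fderiv_subset ℝ hx')
  have hpt : ∀ x, LinearMap.trace ℝ Y (fderiv ℝ V x).toLinearMap • h x =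
      ∑ i, fderiv ℝ (g i) x (b i) - fderiv ℝ h x (V x) := by
    intro x
    by_cases hx : x ∈ tsupport h
    · have hVd : DifferentiableAt ℝ V x :=
        (hV.contDiffAt (hU.mem_nhds (hs hx))).differentiableAt one_ne_zero
      have hhd : DifferentiableAt ℝ h x := hh.differentiable one_ne_zero x
      have e : ∀ i, fderiv ℝ (g i) x (b i) =
          ⟪b i, V x⟫_ℝ • fderiv ℝ h x (b i) + ⟪b i, fderiv ℝ V x (b i)⟫_ℝ • h x := by
        intro i
        have h1 : HasFDerivAt (fun y => ⟪b i, V y⟫_ℝ) ((innerSL ℝ (b i)).comp (fderiv ℝ V x)) x :=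
          (innerSL ℝ (b i)).hasFDerivAt.comp x hVd.hasFDerivAt
        rw [show fderiv ℝ (g i) x = _ from (h1.smul hhd.hasFDerivAt).fderiv]
        simp
      rw [Finset.sum_congr rfl fun i _ => e i, Finset.sum_add_distrib, ← Finset.sum_smul,
        LinearMap.trace_eq_sum_inner _ b]
      have : ∑ i, ⟪b i, V x⟫_ℝ • fderiv ℝ h x (b i) = fderiv ℝ h x (V x) := by
        conv_rhs => rw [← b.sum_repr' (V x)]
        simp
      rw [this]
      simp
    · have : ∀ i, fderiv ℝ (g i) x = 0 := fun i =>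
        image_eq_zero_of_notMem_tsupport fun hx' => hx
          (closure_minimal (s := Function.support (g i))
            (fun y hy => by_contra fun hy' => hy (hg0 i y hy')) (isClosed_tsupport h)
            (tsupport_fderiv_subset ℝ hx'))
      simp [this, hz x hx, hd0 x hx]
  have hI : Integrable fun x => fderiv ℝ h x (V x) := by
    have h0 : ∀ x, x ∉ tsupport h → fderiv ℝ h x (V x) = 0 := fun x hx => by simp [hd0 x hx]
    refine Continuous.integrable_of_hasCompactSupport ?_ (HasCompactSupport.intro hc h0)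
    refine (contDiff_of_support (n := 0) (isClosed_tsupport h) hU hs h0 ?_).continuous
    exact contDiffOn_zero.2
      ((hh.continuous_fderiv one_ne_zero).continuousOn.clm_apply hV.continuousOn)
  simp_rw [hpt]
  rw [integral_sub (integrable_finsetSum _ fun i _ => Da_integrable_fderiv (hg1 i) (hgc i) _) hI,
    integral_finsetSum _ fun i _ => Da_integrable_fderiv (hg1 i) (hgc i) _]
  simp [integral_fderiv_eq_zero' (hg1 _) (hgc _)]

theorem Da_continuous_dirac (C : Cl Θ F) (c : Y →ₗ[ℝ] Θ) {w : Y → Θ} (hw : Continuous w) {ψ : Y → F}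
    (hψ : ContDiff ℝ 1 ψ) : Continuous (dirac C c w ψ) := by
  have : FiniteDimensional ℝ F := Module.Finite.trans ℂ F
  have h1 : Continuous C.θ := C.θ.continuous_of_finiteDimensional
  have h2 := hψ.continuous_fderiv one_ne_zero
  unfold dirac
  refine Continuous.add (continuous_finsetSum _ fun i _ => ?_) ((h1.comp hw).clm_apply hψ.continuous)
  exact ((C.θ _).continuous.comp (h2.clm_apply continuous_const)).const_smul _

theorem dirac_symm (C : Cl Θ F) (c : Y →ₗ[ℝ] Θ) {w : Y → Θ} (hw : Continuous w) {φ ψ : Y → F}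
    (hφ : ContDiff ℝ 1 φ) (hψ : ContDiff ℝ 1 ψ) (hc : HasCompactSupport φ ∨ HasCompactSupport ψ) :
    ∫ x, ⟪dirac C c w φ x, ψ x⟫_ℂ = ∫ x, ⟪φ x, dirac C c w ψ x⟫_ℂ := by
  set b := stdOrthonormalBasis ℝ Y
  set g : Fin (Module.finrank ℝ Y) → Y → ℂ := fun i x => ⟪φ x, C.θ (c (b i)) (ψ x)⟫_ℂ with hg
  have hθ : ∀ i, ContDiff ℝ 1 fun x => C.θ (c (b i)) (ψ x) := fun i =>
    ((C.θ (c (b i))).restrictScalars ℝ).contDiff.comp hψ
  have hg1 : ∀ i, ContDiff ℝ 1 (g i) := fun i => hφ.inner ℂ (hθ i)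
  have hgc : ∀ i, HasCompactSupport (g i) := fun i => by
    rcases hc with hc | hc
    · exact HasCompactSupport.intro hc fun x hx => by simp [hg, image_eq_zero_of_notMem_tsupport hx]
    · exact HasCompactSupport.intro hc fun x hx => by simp [hg, image_eq_zero_of_notMem_tsupport hx]
  have hsa : ∀ v (x y : F), ⟪C.θ v x, y⟫_ℂ = ⟪x, C.θ v y⟫_ℂ := fun v x y => by
    rw [← ContinuousLinearMap.adjoint_inner_right, (C.sa v).adjoint_eq]
  have hpt : ∀ x, ⟪dirac C c w φ x, ψ x⟫_ℂ =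
      ⟪φ x, dirac C c w ψ x⟫_ℂ + ∑ i, Complex.I * fderiv ℝ (g i) x (b i) := by
    intro x
    have e : ∀ i, fderiv ℝ (g i) x (b i) = ⟪φ x, C.θ (c (b i)) (fderiv ℝ ψ x (b i))⟫_ℂ +
        ⟪fderiv ℝ φ x (b i), C.θ (c (b i)) (ψ x)⟫_ℂ := by
      intro i
      rw [hg, fderiv_inner_apply ℂ (hφ.differentiable one_ne_zero x)
        ((hθ i).differentiable one_ne_zero x)]
      congr 2
      exact congrArg (fun L : Y →L[ℝ] F => L (b i))
        (((C.θ (c (b i))).restrictScalars ℝ).hasFDerivAt.comp x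
          (hψ.differentiable one_ne_zero x).hasFDerivAt).fderiv
    simp only [dirac, inner_add_left, inner_add_right, sum_inner, inner_sum, inner_smul_left,
      inner_smul_right, hsa, e]
    rw [add_right_comm, ← Finset.sum_add_distrib]
    congr 1
    refine Finset.sum_congr rfl fun i _ => ?_
    simp only [map_neg, Complex.conj_I]
    ring
  have hI : Integrable fun x => ⟪φ x, dirac C c w ψ x⟫_ℂ := by
    refine (hφ.continuous.inner (Da_continuous_dirac C c hw hψ)).integrable_of_hasCompactSupport ?_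
    rcases hc with hc | hc
    · exact HasCompactSupport.intro hc fun x hx => by simp [image_eq_zero_of_notMem_tsupport hx]
    · exact HasCompactSupport.intro hc fun x hx => by
        simp [image_eq_zero_of_notMem_tsupport fun h => hx (tsupport_dirac_subset C c w ψ h)]
  have hJ : ∀ i, Integrable fun x => Complex.I * fderiv ℝ (g i) x (b i) := fun i =>
    (Da_integrable_fderiv (hg1 i) (hgc i) _).const_mul _
  simp_rw [hpt]
  rw [integral_add hI (integrable_finsetSum _ fun i _ => hJ i), integral_finsetSum _ fun i _ => hJ i]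
  simp [integral_const_mul, integral_fderiv_eq_zero' (hg1 _) (hgc _)]

theorem integral_lap {φ ψ : Y → F} (hφ : Core φ) (hψ : Core ψ) :
    ∫ x, ⟪φ x, lap ψ x⟫_ℂ = -∫ x, ∑ i, ⟪fderiv ℝ φ x (stdOrthonormalBasis ℝ Y i),
      fderiv ℝ ψ x (stdOrthonormalBasis ℝ Y i)⟫_ℂ := by
  set b := stdOrthonormalBasis ℝ Y
  have hφ1 : ContDiff ℝ 1 φ := hφ.1.of_le (by exact_mod_cast le_top)
  have hd : ∀ i, ContDiff ℝ 1 fun y => fderiv ℝ ψ y (b i) := fun i =>
    (hψ.1.fderiv_right (m := 1) (by norm_cast)).clm_apply contDiff_const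
  set g : Fin (Module.finrank ℝ Y) → Y → ℂ := fun i x => ⟪φ x, fderiv ℝ ψ x (b i)⟫_ℂ with hg
  have hg1 : ∀ i, ContDiff ℝ 1 (g i) := fun i => hφ1.inner ℂ (hd i)
  have hgc : ∀ i, HasCompactSupport (g i) := fun i =>
    HasCompactSupport.intro hφ.2 fun x hx => by simp [hg, image_eq_zero_of_notMem_tsupport hx]
  have hpt : ∀ x, ⟪φ x, lap ψ x⟫_ℂ = ∑ i, fderiv ℝ (g i) x (b i) -
      ∑ i, ⟪fderiv ℝ φ x (b i), fderiv ℝ ψ x (b i)⟫_ℂ := by
    intro x
    rw [lap, inner_sum, ← Finset.sum_sub_distrib]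
    refine Finset.sum_congr rfl fun i _ => ?_
    rw [hg, fderiv_inner_apply ℂ (hφ1.differentiable one_ne_zero x)
      ((hd i).differentiable one_ne_zero x), add_sub_cancel_right]
  have hI : Integrable fun x => ∑ i, ⟪fderiv ℝ φ x (b i), fderiv ℝ ψ x (b i)⟫_ℂ := by
    refine integrable_finsetSum _ fun i _ => Continuous.integrable_of_hasCompactSupport
      (((hφ1.continuous_fderiv one_ne_zero).clm_apply continuous_const).inner (hd i).continuous) ?_
    exact HasCompactSupport.intro (hφ.2.fderiv_apply ℝ (b i)) fun x hx => by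
      simp [image_eq_zero_of_notMem_tsupport hx]
  simp_rw [hpt]
  rw [integral_sub (integrable_finsetSum _ fun i _ => Da_integrable_fderiv (hg1 i) (hgc i) _) hI,
    integral_finsetSum _ fun i _ => Da_integrable_fderiv (hg1 i) (hgc i) _]
  simp [integral_fderiv_eq_zero' (hg1 _) (hgc _)]

theorem Db_cont_dirac (C : Cl Θ F) (c : Y →ₗ[ℝ] Θ) {w : Y → Θ} (hw : Continuous w) {φ : Y → F}
    (hφ : ContDiff ℝ 1 φ) : Continuous (dirac C c w φ) := by
  have h1 := hφ.continuous_fderiv one_ne_zero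
  have h2 : Continuous fun x => C.θ (w x) := C.contDiff_θ.continuous.comp hw
  have h3 := hφ.continuous
  unfold dirac
  fun_prop

theorem Db_lap {φ ψ : Y → F} (hφ : ContDiff ℝ 1 φ) (hψ : Core ψ) :
    Continuous (lap ψ) ∧ Integrable (fun x => ⟪φ x, lap ψ x⟫_ℂ + ∑ i, ⟪fderiv ℝ φ x (stdOrthonormalBasis ℝ Y i),
      fderiv ℝ ψ x (stdOrthonormalBasis ℝ Y i)⟫_ℂ) ∧
    ∫ x, (⟪φ x, lap ψ x⟫_ℂ + ∑ i, ⟪fderiv ℝ φ x (stdOrthonormalBasis ℝ Y i),
      fderiv ℝ ψ x (stdOrthonormalBasis ℝ Y i)⟫_ℂ) = 0 := by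
  set b := stdOrthonormalBasis ℝ Y
  have hd : ∀ i, ContDiff ℝ 1 fun y => fderiv ℝ ψ y (b i) := fun i =>
    (hψ.1.fderiv_right (m := 1) (by norm_cast)).clm_apply contDiff_const
  have hh : ∀ i, ContDiff ℝ 1 fun y => ⟪φ y, fderiv ℝ ψ y (b i)⟫_ℂ := fun i => hφ.inner ℂ (hd i)
  have hc : ∀ i, HasCompactSupport fun y => ⟪φ y, fderiv ℝ ψ y (b i)⟫_ℂ := fun i =>
    (hψ.2.fderiv_apply ℝ (b i)).mono fun y hy h0 => hy (by simp [h0])
  have he : (fun x => ⟪φ x, lap ψ x⟫_ℂ + ∑ i, ⟪fderiv ℝ φ x (b i), fderiv ℝ ψ x (b i)⟫_ℂ) =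
      fun x => ∑ i, fderiv ℝ (fun y => ⟪φ y, fderiv ℝ ψ y (b i)⟫_ℂ) x (b i) := by
    ext x
    rw [lap, inner_sum, ← Finset.sum_add_distrib]
    refine Finset.sum_congr rfl fun i _ => ?_
    rw [fderiv_inner_apply ℂ (hφ.differentiable one_ne_zero x) ((hd i).differentiable one_ne_zero x)]
  have hi : ∀ i, Integrable fun x => fderiv ℝ (fun y => ⟪φ y, fderiv ℝ ψ y (b i)⟫_ℂ) x (b i) := fun i =>
    (((hh i).continuous_fderiv one_ne_zero).clm_apply continuous_const).integrable_of_hasCompactSupport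
      ((hc i).fderiv_apply ℝ (b i))
  refine ⟨?_, ?_, ?_⟩
  · exact continuous_finsetSum _ fun i _ => ((hd i).continuous_fderiv one_ne_zero).clm_apply continuous_const
  · rw [he]
    exact integrable_finsetSum _ fun i _ => hi i
  · rw [he, integral_finsetSum _ fun i _ => hi i]
    exact Finset.sum_eq_zero fun i _ => integral_fderiv_eq_zero' (hh i) (hc i) _

theorem Db_core (C : Cl Θ F) (c : Y →ₗ[ℝ] Θ) {w : Y → Θ} (hw : ContDiff ℝ ∞ w) {φ ψ : Y → F}
    (hφ : ContDiff ℝ 1 φ) (hψ : Core ψ) (r : Y → F)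
    (hr : ∀ x, dirac C c w (dirac C c w ψ) x = (-1 / 2 : ℂ) • lap ψ x + r x) (z : Y → ℝ)
    (hz : ∀ x, z x = (⟪φ x, r x⟫_ℂ).re + 1 / 2 * (∑ i, ⟪fderiv ℝ φ x (stdOrthonormalBasis ℝ Y i),
      fderiv ℝ ψ x (stdOrthonormalBasis ℝ Y i)⟫_ℂ).re - (⟪dirac C c w φ x, dirac C c w ψ x⟫_ℂ).re) :
    Continuous r ∧ Integrable z ∧ ∫ x, z x = 0 := by
  obtain ⟨cl, il, el⟩ := Db_lap hφ hψ
  have hQ := hψ.dirac C c hw
  have hQQ := hQ.dirac C c hw
  have es := dirac_symm C c hw.continuous hφ (hQ.1.of_le (by exact_mod_cast le_top)) (Or.inr hQ.2)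
  have ia : Integrable fun x => ⟪dirac C c w φ x, dirac C c w ψ x⟫_ℂ :=
    ((Db_cont_dirac C c hw.continuous hφ).inner hQ.1.continuous).integrable_of_hasCompactSupport
      (hQ.2.mono fun y hy h0 => hy (by simp [h0]))
  have ib : Integrable fun x => ⟪φ x, dirac C c w (dirac C c w ψ) x⟫_ℂ :=
    (hφ.continuous.inner hQQ.1.continuous).integrable_of_hasCompactSupport
      (hQQ.2.mono fun y hy h0 => hy (by simp [h0]))
  have iz := (ib.sub ia).add (il.const_mul (1 / 2 : ℂ))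
  have ez : z = fun x => RCLike.re (⟪φ x, dirac C c w (dirac C c w ψ) x⟫_ℂ - ⟪dirac C c w φ x, dirac C c w ψ x⟫_ℂ +
      (1 / 2 : ℂ) * (⟪φ x, lap ψ x⟫_ℂ + ∑ i, ⟪fderiv ℝ φ x (stdOrthonormalBasis ℝ Y i),
        fderiv ℝ ψ x (stdOrthonormalBasis ℝ Y i)⟫_ℂ)) := by
    ext x
    rw [hz, hr, inner_add_right, inner_smul_right]
    simp only [RCLike.re_to_complex, Complex.add_re, Complex.sub_re, Complex.mul_re, Complex.add_im]
    norm_num
    ring
  refine ⟨?_, ?_, ?_⟩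
  · have : r = fun x => dirac C c w (dirac C c w ψ) x - (-1 / 2 : ℂ) • lap ψ x := by
      ext x; rw [hr]; abel
    rw [this]
    exact hQQ.1.continuous.sub (cl.const_smul _)
  · rw [ez]
    exact iz.re
  · rw [ez]
    refine (integral_re iz).trans ?_
    rw [integral_add' (ib.sub ia) (il.const_mul _), integral_sub' ib ia, integral_const_mul, el, es]
    simp

theorem Db_re_self (a : F) : (⟪a, a⟫_ℂ).re = ‖a‖ ^ 2 := inner_self_eq_norm_sq (𝕜 := ℂ) a

theorem Db_int {W : Type} [NormedAddCommGroup W] {h : Y → W} {K : Set Y} (hK : IsCompact K)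
    (hh : ContinuousOn h K) (h0 : ∀ x, x ∉ K → h x = 0) : Integrable h :=
  (integrableOn_iff_integrable_of_support_subset fun x hx => by_contra fun hn => hx (h0 x hn)).1
    (hh.integrableOn_compact hK)

theorem Db_young {t q p B κ : ℝ} (hp : 0 ≤ p) (hκ : 0 < κ) (h : t ^ 2 ≤ p ^ 2 * B) :
    t * q ≤ p * (κ * q ^ 2 + B / (4 * κ)) := by
  rcases hp.eq_or_lt with rfl | hp
  · have : t = 0 := by nlinarith [sq_nonneg t]
    simp [this]
  · refine le_of_mul_le_mul_left ?_ (by positivity : 0 < 4 * κ * p)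
    have : 4 * κ * p * (p * (κ * q ^ 2 + B / (4 * κ))) = (2 * κ * p * q) ^ 2 + p ^ 2 * B := by
      field_simp; ring
    rw [this]
    nlinarith [sq_nonneg (2 * κ * p * q - t)]

/-- Energy identity: if `Q² ψ = -½Δψ + r` pointwise then `‖Qψ‖² = ½‖∇ψ‖² + Re⟨ψ, r⟩`. -/
theorem energy_eq (C : Cl Θ F) (c : Y →ₗ[ℝ] Θ) {w : Y → Θ} (hw : ContDiff ℝ ∞ w) {ψ : Y → F}
    (hψ : Core ψ) (r : Y → F)
    (hr : ∀ x, dirac C c w (dirac C c w ψ) x = (-1 / 2 : ℂ) • lap ψ x + r x) :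
    ∫ x, ‖dirac C c w ψ x‖ ^ 2 = ∫ x, (1 / 2 * gsq ψ x + (⟪ψ x, r x⟫_ℂ).re) := by
  have hQ := hψ.dirac C c hw
  obtain ⟨-, iz, ez⟩ := Db_core C c hw (hψ.1.of_le (by exact_mod_cast le_top)) hψ r hr
    (fun x => 1 / 2 * gsq ψ x + (⟪ψ x, r x⟫_ℂ).re - ‖dirac C c w ψ x‖ ^ 2) (fun x => by
      rw [Complex.re_sum, gsq]
      simp only [Db_re_self]
      ring)
  have iq : Integrable fun x => ‖dirac C c w ψ x‖ ^ 2 :=
    (hQ.1.continuous.norm.pow 2).integrable_of_hasCompactSupport (hQ.2.mono fun y hy h0 => hy (by simp [h0]))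
  have := integral_add iz iq
  simp only [sub_add_cancel] at this
  rw [this, ez, zero_add]

/-- Weighted energy inequality. -/
theorem energy_weighted (C : Cl Θ F) (c : Y →ₗ[ℝ] Θ) (hc : ∀ v, ‖c v‖ = ‖v‖) {w : Y → Θ}
    (hw : ContDiff ℝ ∞ w) {ψ : Y → F} (hψ : Core ψ) (r : Y → F)
    (hr : ∀ x, dirac C c w (dirac C c w ψ) x = (-1 / 2 : ℂ) • lap ψ x + r x)
    {U : Set Y} (hU : IsOpen U) (hs : tsupport ψ ⊆ U) {ϖ Λ : Y → ℝ} (hϖ : ContDiffOn ℝ 1 ϖ U)
    (hΛ : ContinuousOn Λ U) (h0 : ∀ x ∈ U, 0 ≤ ϖ x)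
    (hg : ∀ x ∈ U, ‖fderiv ℝ ϖ x‖ ≤ Λ x * ϖ x) {τ : ℝ} (hτ : 0 < τ) :
    ∫ x, ϖ x * ((1 / 2 - τ) * gsq ψ x + (⟪ψ x, r x⟫_ℂ).re) ≤
      2 * (∫ x, ϖ x * ‖dirac C c w ψ x‖ ^ 2) +
        (1 / (16 * τ) + 1 / 8) * ∫ x, Λ x ^ 2 * ϖ x * ‖ψ x‖ ^ 2 := by
  set b := stdOrthonormalBasis ℝ Y with hb
  have hQ := hψ.dirac C c hw
  have hK : IsCompact (tsupport ψ) := hψ.2
  have hψ1 : ContDiff ℝ 1 ψ := hψ.1.of_le (by exact_mod_cast le_top)
  have z0 : ∀ x, x ∉ tsupport ψ → ψ x = 0 := fun x hx => image_eq_zero_of_notMem_tsupport hx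
  have zQ : ∀ x, x ∉ tsupport ψ → dirac C c w ψ x = 0 := fun x hx =>
    image_eq_zero_of_notMem_tsupport fun h => hx (tsupport_dirac_subset C c w ψ h)
  have zD : ∀ x, x ∉ tsupport ψ → fderiv ℝ ψ x = 0 := fun x hx =>
    image_eq_zero_of_notMem_tsupport fun h => hx (tsupport_fderiv_subset ℝ h)
  have zg : ∀ x, x ∉ tsupport ψ → gsq ψ x = 0 := fun x hx => by simp [gsq, zD x hx]
  have hφ : ContDiff ℝ 1 fun y => (ϖ y : ℂ) • ψ y :=
    contDiff_of_support (isClosed_tsupport ψ) hU hs (fun x hx => by simp [z0 x hx])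
      ((Complex.ofRealCLM.contDiff.comp_contDiffOn hϖ).smul hψ1.contDiffOn)
  obtain ⟨cr, iz, ez⟩ := Db_core C c hw hφ hψ r hr _ fun _ => rfl
  have cϖ : ContinuousOn ϖ (tsupport ψ) := hϖ.continuousOn.mono hs
  have cg : Continuous (gsq ψ) := by
    have := hψ1.continuous_fderiv one_ne_zero
    unfold gsq
    fun_prop
  have i1 : Integrable fun x => ϖ x * ((1 / 2 - τ) * gsq ψ x + (⟪ψ x, r x⟫_ℂ).re) :=
    Db_int hK (cϖ.mul ((cg.const_mul _).add
      (Complex.continuous_re.comp (hψ1.continuous.inner cr))).continuousOn) fun x hx => by simp [z0 x hx, zg x hx]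
  have i2 : Integrable fun x => ϖ x * ‖dirac C c w ψ x‖ ^ 2 :=
    Db_int hK (cϖ.mul (hQ.1.continuous.norm.pow 2).continuousOn) fun x hx => by simp [zQ x hx]
  have i3 : Integrable fun x => Λ x ^ 2 * ϖ x * ‖ψ x‖ ^ 2 :=
    Db_int hK ((((hΛ.mono hs).pow 2).mul cϖ).mul (hψ1.continuous.norm.pow 2).continuousOn)
      fun x hx => by simp [z0 x hx]
  have i4 := (i2.const_mul 2).add (i3.const_mul (1 / (16 * τ) + 1 / 8))
  refine (integral_mono i1 (iz.add i4) fun x => ?_).trans_eq (by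
    rw [integral_add' iz i4, integral_add' (i2.const_mul _) (i3.const_mul _), ez, zero_add, integral_const_mul,
      integral_const_mul])
  simp only [Pi.add_apply]
  by_cases hx : x ∈ tsupport ψ
  swap
  · simp [z0 x hx, zg x hx, zQ x hx, zD x hx]
  have hxU := hs hx
  have dϖ : DifferentiableAt ℝ ϖ x := (hϖ.contDiffAt (hU.mem_nhds hxU)).differentiableAt one_ne_zero
  have dψ : DifferentiableAt ℝ ψ x := hψ1.differentiable one_ne_zero x
  set g := gradient ϖ x with hgd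
  have hgn : ‖g‖ ^ 2 ≤ ϖ x ^ 2 * Λ x ^ 2 := by
    have : ‖g‖ = ‖fderiv ℝ ϖ x‖ := by rw [hgd, gradient, LinearIsometryEquiv.norm_map]
    rw [this, ← mul_pow, mul_comm]
    exact pow_le_pow_left₀ (norm_nonneg _) (hg x hxU) 2
  have hD : ∀ v, fderiv ℝ (fun y => (ϖ y : ℂ) • ψ y) x v =
      (ϖ x : ℂ) • fderiv ℝ ψ x v + ((⟪g, v⟫_ℝ : ℝ) : ℂ) • ψ x := by
    intro v
    have h1 : HasFDerivAt (fun y => (ϖ y : ℂ)) (Complex.ofRealCLM.comp (fderiv ℝ ϖ x)) x :=
      Complex.ofRealCLM.hasFDerivAt.comp x dϖ.hasFDerivAt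
    rw [(h1.fun_smul dψ.hasFDerivAt).fderiv]
    simp [hgd, gradient]
  have hS : (∑ i, ⟪fderiv ℝ (fun y => (ϖ y : ℂ) • ψ y) x (b i), fderiv ℝ ψ x (b i)⟫_ℂ).re =
      ϖ x * gsq ψ x + (⟪ψ x, fderiv ℝ ψ x g⟫_ℂ).re := by
    conv_rhs => rw [← b.sum_repr' g, map_sum, inner_sum, gsq, Finset.mul_sum, Complex.re_sum,
      ← Finset.sum_add_distrib]
    rw [Complex.re_sum]
    refine Finset.sum_congr rfl fun i _ => ?_
    rw [hD, inner_add_left, inner_smul_left, inner_smul_left, map_smul, ← Complex.coe_smul, inner_smul_right,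
      Complex.add_re, Complex.conj_ofReal, Complex.conj_ofReal, Complex.re_ofReal_mul, Complex.re_ofReal_mul,
      Complex.re_ofReal_mul, Db_re_self, real_inner_comm]
  have hA : (⟪dirac C c w (fun y => (ϖ y : ℂ) • ψ y) x, dirac C c w ψ x⟫_ℂ).re =
      ϖ x * ‖dirac C c w ψ x‖ ^ 2 - (⟪Complex.I • C.θ (c g) (ψ x), dirac C c w ψ x⟫_ℂ).re := by
    rw [dirac_smul C c w dϖ dψ, inner_sub_left, inner_smul_left, Complex.sub_re, Complex.conj_ofReal,
      Complex.re_ofReal_mul, Db_re_self]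
  have hR : (⟪(ϖ x : ℂ) • ψ x, r x⟫_ℂ).re = ϖ x * (⟪ψ x, r x⟫_ℂ).re := by
    rw [inner_smul_left, Complex.conj_ofReal, Complex.re_ofReal_mul]
  have b1 : -(⟪Complex.I • C.θ (c g) (ψ x), dirac C c w ψ x⟫_ℂ).re ≤
      ϖ x * (1 * ‖dirac C c w ψ x‖ ^ 2 + Λ x ^ 2 * ‖ψ x‖ ^ 2 / 2 / (4 * 1)) := by
    refine le_trans ((neg_le_abs _).trans ((Complex.abs_re_le_norm _).trans (norm_inner_le_norm _ _)))
      (Db_young (h0 x hxU) one_pos ?_)
    rw [norm_smul, Complex.norm_I, one_mul, C.norm_θ_sq, hc]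
    nlinarith [sq_nonneg ‖ψ x‖]
  have hg0 : 0 ≤ gsq ψ x := Finset.sum_nonneg fun i _ => sq_nonneg _
  have b2 : -(⟪ψ x, fderiv ℝ ψ x g⟫_ℂ).re ≤
      ϖ x * (2 * τ * √(gsq ψ x) ^ 2 + Λ x ^ 2 * ‖ψ x‖ ^ 2 / (4 * (2 * τ))) := by
    have h1 : ‖fderiv ℝ ψ x g‖ ≤ ‖g‖ * √(gsq ψ x) := by
      refine abs_le_of_sq_le_sq' ?_ (by positivity) |>.2
      rw [mul_pow, Real.sq_sqrt hg0, mul_comm]
      exact norm_fderiv_apply_sq_le ψ x g
    refine le_trans ((neg_le_abs _).trans ((Complex.abs_re_le_norm _).trans ((norm_inner_le_norm _ _).trans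
      ((mul_le_mul_of_nonneg_left h1 (norm_nonneg _)).trans_eq (mul_assoc _ _ _).symm))))
      (Db_young (h0 x hxU) (by positivity) ?_)
    rw [mul_pow]
    nlinarith [sq_nonneg ‖ψ x‖]
  rw [Real.sq_sqrt hg0] at b2
  rw [hS, hA, hR]
  have e2 : ϖ x * (2 * τ * gsq ψ x + Λ x ^ 2 * ‖ψ x‖ ^ 2 / (4 * (2 * τ))) =
      2 * (τ * ϖ x * gsq ψ x + 1 / (16 * τ) * (Λ x ^ 2 * ϖ x * ‖ψ x‖ ^ 2)) := by
    field_simp; ring
  rw [e2] at b2
  nlinarith

end Crest.Agent.R330

end
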