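import Crest.Agent.R330.G.D

/-! # Row 330, G/E (statements frozen; see `R330/Blueprint.lean`) -/

set_option autoImplicit false
set_option linter.unusedSectionVars false

noncomputable section

open MeasureTheory Filter Topology
open scoped InnerProductSpace ContDiff Matrix

namespace Crest.Agent.R330

variable {Y Θ F : Type} [NormedAddCommGroup Y] [InnerProductSpace ℝ Y] [FiniteDimensional ℝ Y]
  [MeasurableSpace Y] [BorelSpace Y]
  [NormedAddCommGroup Θ] [InnerProductSpace ℝ Θ] [FiniteDimensional ℝ Θ]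
  [NormedAddCommGroup F] [InnerProductSpace ℂ F] [FiniteDimensional ℂ F]

theorem gE_norm_sq {f : Y → F} {x : Y} (hf : DifferentiableAt ℝ f x) : ∃ L : Y →L[ℝ] ℝ,
    HasFDerivAt (fun y => ‖f y‖ ^ 2) L x ∧ ∀ v, L v = 2 * (⟪f x, fderiv ℝ f x v⟫_ℂ).re := by
  have h := Complex.reCLM.hasFDerivAt.comp x (hf.hasFDerivAt.inner ℂ hf.hasFDerivAt)
  refine ⟨_, h.congr_of_eventuallyEq (Eventually.of_forall fun y => ?_), fun v => ?_⟩
  · exact (inner_self_eq_norm_sq (𝕜 := ℂ) (f y)).symm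
  · have := inner_re_symm (𝕜 := ℂ) (fderiv ℝ f x v) (f x)
    simp only [RCLike.re_to_complex] at this
    simp [this, two_mul]

theorem gE_int {g : Y → ℝ} {K U : Set Y} (hK : IsCompact K) (hU : IsOpen U) (hKU : K ⊆ U)
    (h0 : ∀ x, x ∉ K → g x = 0) (hg : ContinuousOn g U) : Integrable g :=
  (contDiff_zero.1 (contDiff_of_support hK.isClosed hU hKU h0
    (contDiffOn_zero.2 hg))).integrable_of_hasCompactSupport (HasCompactSupport.intro hK h0)

theorem gE_sq (u v : F) (t : ℝ) : -(t ^ 2 * ‖u‖ ^ 2) ≤ ‖v‖ ^ 2 + t * (2 * (⟪u, v⟫_ℂ).re) := by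
  have h1 : |(⟪u, v⟫_ℂ).re| ≤ ‖u‖ * ‖v‖ := (Complex.abs_re_le_norm _).trans (norm_inner_le_norm u v)
  have h2 : |t * (⟪u, v⟫_ℂ).re| ≤ |t| * (‖u‖ * ‖v‖) := by rw [abs_mul]; gcongr
  rw [← sq_abs t]
  nlinarith [neg_abs_le (t * (⟪u, v⟫_ℂ).re), sq_nonneg (|t| * ‖u‖ - ‖v‖)]

/-- Vector field method (Hardy, oscillator, ground state bounds) for a covariant gradient `Dv`
and a weight `ϖ` killed by the directions used.  `a` maps an auxiliary space into `Y`;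
the vector field is `x ↦ a (W x)`. -/
theorem vf_ineq {Y' : Type} [NormedAddCommGroup Y'] [InnerProductSpace ℝ Y']
    [FiniteDimensional ℝ Y'] (a : Y' →ₗ[ℝ] Y) {f : Y → F} (hf : ContDiff ℝ 1 f)
    (hfc : HasCompactSupport f) (Dv : Y → Y' → F)
    (hD : ∀ x v, (⟪f x, Dv x v⟫_ℂ).re = (⟪f x, fderiv ℝ f x (a v)⟫_ℂ).re)
    (hDc : ∀ v, Continuous fun x => Dv x v) (hD0 : ∀ x, x ∉ tsupport f → ∀ v, Dv x v = 0)
    {U : Set Y} (hU : IsOpen U) (hs : tsupport f ⊆ U) {ϖ : Y → ℝ} (hϖ : ContDiffOn ℝ 1 ϖ U)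
    (h0 : ∀ x ∈ U, 0 ≤ ϖ x) (hϖa : ∀ x ∈ U, ∀ v, fderiv ℝ ϖ x (a v) = 0)
    {W : Y → Y'} (hW : ContDiffOn ℝ 1 W U) :
    ∫ x, ϖ x * (LinearMap.trace ℝ Y' ((fderiv ℝ W x).toLinearMap ∘ₗ a) - ‖W x‖ ^ 2) * ‖f x‖ ^ 2 ≤
      ∫ x, ϖ x * ∑ i, ‖Dv x (stdOrthonormalBasis ℝ Y' i)‖ ^ 2 := by
  set e := stdOrthonormalBasis ℝ Y' with he
  have f0 : ∀ x, x ∉ tsupport f → f x = 0 := fun x => image_eq_zero_of_notMem_tsupport
  let h : Fin (Module.finrank ℝ Y') → Y → ℝ := fun i x => ϖ x * ⟪e i, W x⟫_ℝ * ‖f x‖ ^ 2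
  have hz : ∀ i x, x ∉ tsupport f → h i x = 0 := fun i x hx => by simp [h, f0 x hx]
  have hh : ∀ i, ContDiff ℝ 1 (h i) := fun i => contDiff_of_support (isClosed_tsupport f) hU hs (hz i)
    ((hϖ.mul (contDiffOn_const.inner ℝ hW)).mul (hf.norm_sq ℂ).contDiffOn)
  have hc : ∀ i, HasCompactSupport (h i) := fun i => HasCompactSupport.intro hfc (hz i)
  have hi : ∀ i, Integrable fun x => fderiv ℝ (h i) x (a (e i)) := fun i =>
    (((hh i).continuous_fderiv one_ne_zero).clm_apply continuous_const).integrable_of_hasCompactSupport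
      ((hc i).fderiv_apply ℝ _)
  have htr : ∀ x, LinearMap.trace ℝ Y' ((fderiv ℝ W x).toLinearMap ∘ₗ a) =
      ∑ i, ⟪e i, fderiv ℝ W x (a (e i))⟫_ℝ := fun x => LinearMap.trace_eq_sum_inner _ e
  have hR : Integrable fun x => ϖ x * ∑ i, ‖Dv x (e i)‖ ^ 2 :=
    gE_int hfc hU hs (fun x hx => by simp [hD0 x hx]) (hϖ.continuousOn.mul
      (continuous_finsetSum _ fun i _ => (hDc _).norm.pow 2).continuousOn)
  have hL : Integrable fun x =>
      ϖ x * (LinearMap.trace ℝ Y' ((fderiv ℝ W x).toLinearMap ∘ₗ a) - ‖W x‖ ^ 2) * ‖f x‖ ^ 2 := by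
    simp only [htr]
    exact gE_int hfc hU hs (fun x hx => by simp [f0 x hx]) ((hϖ.continuousOn.mul
      ((continuousOn_finsetSum _ fun i _ => ContinuousOn.inner (𝕜 := ℝ) continuousOn_const
        ((hW.continuousOn_fderiv_of_isOpen hU le_rfl).clm_apply continuousOn_const)).sub
        (hW.continuousOn.norm.pow 2))).mul (hf.continuous.norm.pow 2).continuousOn)
  have hS := integrable_finsetSum Finset.univ fun i _ => hi i
  have e0 : ∫ x, ∑ i, fderiv ℝ (h i) x (a (e i)) = 0 := by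
    rw [integral_finsetSum _ fun i _ => hi i]
    exact Finset.sum_eq_zero fun i _ => integral_fderiv_eq_zero' (hh i) (hc i) _
  rw [← add_zero (∫ x, ϖ x * ∑ i, ‖Dv x (e i)‖ ^ 2), ← e0, ← integral_add hR hS]
  refine integral_mono hL (hR.add hS) fun x => ?_
  by_cases hx : x ∈ tsupport f
  swap
  · have : ∀ i, fderiv ℝ (h i) x = 0 := fun i => by
      have : h i =ᶠ[𝓝 x] fun _ => 0 := by
        filter_upwards [(isClosed_tsupport f).isOpen_compl.mem_nhds hx] with y hy using hz i y hy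
      rw [this.fderiv_eq, fderiv_fun_const, Pi.zero_apply]
    simp [this, f0 x hx, hD0 x hx]
  have xU := hs hx
  have d1 := ((hϖ.contDiffAt (hU.mem_nhds xU)).differentiableAt one_ne_zero).hasFDerivAt
  have d2 := ((hW.contDiffAt (hU.mem_nhds xU)).differentiableAt one_ne_zero).hasFDerivAt
  obtain ⟨L, d3, hLv⟩ := gE_norm_sq (x := x) (hf.differentiable one_ne_zero x)
  have hd : ∀ i, fderiv ℝ (h i) x (a (e i)) = ϖ x * (⟪e i, W x⟫_ℝ * (2 * (⟪f x, Dv x (e i)⟫_ℂ).re) +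
      ⟪e i, fderiv ℝ W x (a (e i))⟫_ℝ * ‖f x‖ ^ 2) := fun i => by
    have := ((d1.mul ((innerSL ℝ (e i)).hasFDerivAt.comp x d2)).mul d3).fderiv
    have e1 : fderiv ℝ (h i) x = _ := this
    rw [e1, hD]
    simp [hLv, hϖa x xU]
    ring
  simp only [hd, htr]
  rw [← Finset.mul_sum, ← mul_add, mul_assoc, ← e.sum_sq_inner_right (W x), ← Finset.sum_sub_distrib,
    Finset.sum_mul, ← Finset.sum_add_distrib]
  refine mul_le_mul_of_nonneg_left (Finset.sum_le_sum fun i _ => ?_) (h0 x xU)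
  have := gE_sq (f x) (Dv x (e i)) ⟪e i, W x⟫_ℝ
  linarith

end Crest.Agent.R330

end
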