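import Crest.Agent.R330.G.A

/-! # Row 330, G/E2 (statements frozen; see `R330/Blueprint.lean`) -/

set_option autoImplicit false
set_option linter.unusedSectionVars false

noncomputable section

open MeasureTheory Filter Topology
open scoped InnerProductSpace ContDiff Matrix

namespace Crest.Agent.R330

variable {Y Θ F : Type} [NormedAddCommGroup Y] [InnerProductSpace ℝ Y] [FiniteDimensional ℝ Y]
  [MeasurableSpace Y] [BorelSpace Y]
  [NormedAddCommGroup Θ] [InnerProductSpace ℝ Θ] [FiniteDimensional ℝ Θ]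
  [NormedAddCommGroup F] [InnerProductSpace ℂ F] [FiniteDimensional ℂ F]

theorem E2_cs (T : Y →L[ℝ] F) (A : Y ≃L[ℝ] Y) (w : Y) :
    ‖T w‖ ^ 2 ≤ ‖A w‖ ^ 2 * ∑ i, ‖T (A.symm (stdOrthonormalBasis ℝ Y i))‖ ^ 2 := by
  have h1 : T w = ∑ i, ⟪stdOrthonormalBasis ℝ Y i, A w⟫_ℝ • T (A.symm (stdOrthonormalBasis ℝ Y i)) := by
    conv_lhs => rw [← A.symm_apply_apply w, ← (stdOrthonormalBasis ℝ Y).sum_repr' (A w), map_sum, map_sum]
    simp only [map_smul]
  have h2 : ‖T w‖ ≤ ∑ i, |⟪stdOrthonormalBasis ℝ Y i, A w⟫_ℝ| * ‖T (A.symm (stdOrthonormalBasis ℝ Y i))‖ := by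
    rw [h1]
    exact (norm_sum_le _ _).trans (le_of_eq (by simp only [norm_smul, Real.norm_eq_abs]))
  refine (pow_le_pow_left₀ (norm_nonneg _) h2 2).trans ((Finset.sum_mul_sq_le_sq_mul_sq _ _ _).trans (le_of_eq ?_))
  simp only [sq_abs, (stdOrthonormalBasis ℝ Y).sum_sq_inner_right]

theorem E2_half {f : ℝ → ℝ} (hf : Continuous f) :
    (∫ s in (0 : ℝ)..1 / 2, f s) ^ 2 ≤ 1 / 2 * ∫ s in (0 : ℝ)..1 / 2, f s ^ 2 := by
  set J := ∫ s in (0 : ℝ)..1 / 2, f s with hJ
  have h := intervalIntegral.integral_nonneg (μ := volume) (a := 0) (b := 1 / 2) (f := fun s => (f s - 2 * J) ^ 2)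
    (by norm_num) fun _ _ => sq_nonneg _
  have e : (fun s => (f s - 2 * J) ^ 2) = fun s => f s ^ 2 - 4 * J * f s + 4 * J ^ 2 := by
    funext s; ring
  rw [e, intervalIntegral.integral_add, intervalIntegral.integral_sub, intervalIntegral.integral_const_mul,
    intervalIntegral.integral_const, ← hJ, smul_eq_mul] at h
  · nlinarith
  all_goals exact Continuous.intervalIntegrable (by fun_prop) _ _

theorem E2_seg {v : Y → F} (hv : ContDiff ℝ 1 v) (x y : Y) :
    ‖v ((1 / 2 : ℝ) • x + (1 - 1 / 2 : ℝ) • y) - v y‖ ^ 2 ≤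
      1 / 2 * ∫ s in (0 : ℝ)..1 / 2, ‖fderiv ℝ v (s • x + (1 - s) • y) (x - y)‖ ^ 2 := by
  have hc := hv.continuous_fderiv one_ne_zero
  have hc' : Continuous fun s : ℝ => fderiv ℝ v (s • x + (1 - s) • y) (x - y) := by fun_prop
  have h := intervalIntegral.integral_eq_sub_of_hasDerivAt (a := 0) (b := 1 / 2)
    (f := fun s : ℝ => v (s • x + (1 - s) • y)) (f' := fun s : ℝ => fderiv ℝ v (s • x + (1 - s) • y) (x - y))
    (fun s _ => (hv.differentiable one_ne_zero _).hasFDerivAt.comp_hasDerivAt s (by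
      simpa [sub_eq_add_neg] using ((hasDerivAt_id s).smul_const x).fun_add
        (((hasDerivAt_id s).const_sub 1).smul_const y))) (hc'.intervalIntegrable _ _)
  simp only [zero_smul, sub_zero, one_smul, zero_add] at h
  rw [← h]
  exact (pow_le_pow_left₀ (norm_nonneg _) (intervalIntegral.norm_integral_le_integral_norm (by norm_num)) 2).trans
    (E2_half hc'.norm)

theorem E2_scale {H : Y → ENNReal} (hH : Measurable H) (x : Y) {s : ℝ} (hs : s ≤ 1 / 2) :
    ∫⁻ y, H (s • x + (1 - s) • y) ≤ 2 ^ Module.finrank ℝ Y * ∫⁻ y, H y := by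
  have h0 : 0 < 1 - s := by linarith
  rw [← lintegral_map (f := fun z => H (s • x + z)) (g := fun y : Y => (1 - s) • y) (by fun_prop) (by fun_prop),
    Measure.map_addHaar_smul _ h0.ne', lintegral_smul_measure, lintegral_add_left_eq_self, smul_eq_mul]
  gcongr
  rw [abs_of_pos (by positivity), ← inv_pow, ENNReal.ofReal_pow (by positivity)]
  gcongr
  rw [← ENNReal.ofReal_ofNat]
  exact ENNReal.ofReal_le_ofReal (by rw [inv_le_comm₀ h0 two_pos]; linarith)

theorem E2_double {H : Y → ENNReal} (hH : Measurable H) {S : Set Y} (hS : MeasurableSet S) :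
    ∫⁻ x, ∫⁻ y, ((S.indicator 1 x * ∫⁻ s in Set.Ioc (0 : ℝ) (1 / 2), H (s • x + (1 - s) • y)) +
      S.indicator 1 y * ∫⁻ s in Set.Ioc (0 : ℝ) (1 / 2), H (s • y + (1 - s) • x)) ≤
      2 ^ (Module.finrank ℝ Y + 1) * volume S * ∫⁻ y, H y := by
  set Ψ : Y × Y → ENNReal := fun p =>
    S.indicator 1 p.1 * ∫⁻ s in Set.Ioc (0 : ℝ) (1 / 2), H (s • p.1 + (1 - s) • p.2) with hΨ
  have mΨ : Measurable Ψ := ((measurable_one.indicator hS).comp measurable_fst).mul
    (Measurable.lintegral_prod_right' (f := fun q : (Y × Y) × ℝ => H (q.2 • q.1.1 + (1 - q.2) • q.1.2))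
      (by fun_prop))
  have h1 : ∫⁻ p, Ψ p ∂(volume.prod volume) ≤ 2 ^ Module.finrank ℝ Y * volume S * ∫⁻ y, H y := by
    rw [lintegral_prod _ mΨ.aemeasurable, mul_right_comm, ← lintegral_indicator_one hS, ← lintegral_const_mul _
      (measurable_one.indicator hS)]
    refine lintegral_mono fun x => ?_
    rw [hΨ]
    simp only
    rw [lintegral_const_mul' _ _ (by by_cases h : x ∈ S <;> simp [h]), mul_comm, lintegral_lintegral_swap
      (Measurable.aemeasurable (by fun_prop))]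
    gcongr
    refine (setLIntegral_mono' measurableSet_Ioc fun s hs => E2_scale hH x hs.2).trans ?_
    rw [setLIntegral_const, Real.volume_Ioc]
    exact mul_le_of_le_one_right' (ENNReal.ofReal_le_one.2 (by norm_num))
  have h2 := lintegral_prod (μ := volume) (ν := volume) (fun p => Ψ p + Ψ p.swap)
    (mΨ.add (mΨ.comp measurable_swap)).aemeasurable
  refine h2.symm.trans_le ?_
  rw [lintegral_add_left mΨ, lintegral_prod_swap, ← two_mul, pow_succ', mul_assoc, mul_assoc, ← mul_assoc (2 ^ _)]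
  gcongr

/-- Poincaré inequality for a quasi-concave weight on a convex set, for the anisotropic gauge
`‖A (x - y)‖ ≤ d` (`A` invertible): the gradient is measured along `A⁻¹`. -/
theorem poincare_qc {K : Set Y} (hK : Convex ℝ K) (hKc : IsCompact K) {g : Y → ℝ}
    (hg : Continuous g) (h0 : ∀ x, 0 ≤ g x) (g₁ : ℝ) (h1 : ∀ x, g x ≤ g₁)
    (hqc : ∀ x ∈ K, ∀ y ∈ K, ∀ s ∈ Set.Icc (0 : ℝ) 1, min (g x) (g y) ≤ g (s • x + (1 - s) • y))
    (A : Y ≃L[ℝ] Y) (d : ℝ) (hd : ∀ x ∈ K, ∀ y ∈ K, g x ≠ 0 → g y ≠ 0 → ‖A (x - y)‖ ≤ d)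
    {v : Y → F} (hv : ContDiff ℝ 1 v) :
    ∫ x in K, ∫ y in K, g x * g y * ‖v x - v y‖ ^ 2 ≤
      2 ^ (Module.finrank ℝ Y + 1) * g₁ * d ^ 2 * (volume (K ∩ {x | g x ≠ 0})).toReal *
        ∫ x in K, g x * ∑ i, ‖fderiv ℝ v x (A.symm (stdOrthonormalBasis ℝ Y i))‖ ^ 2 := by
  have hc := hv.continuous_fderiv one_ne_zero
  set G : Y → ℝ := fun z => ∑ i, ‖fderiv ℝ v z (A.symm (stdOrthonormalBasis ℝ Y i))‖ ^ 2 with hG
  have cG : Continuous G := continuous_finsetSum _ fun i _ => by fun_prop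
  have G0 : ∀ z, 0 ≤ G z := fun z => Finset.sum_nonneg fun _ _ => sq_nonneg _
  have g0 : 0 ≤ g₁ := (h0 0).trans (h1 0)
  have mK := hKc.measurableSet
  set S := K ∩ {x | g x ≠ 0}
  have mS : MeasurableSet S := mK.inter (isOpen_ne_fun hg continuous_const).measurableSet
  set H : Y → ENNReal := K.indicator fun z => ENNReal.ofReal (g z * G z) with hH
  have mH : Measurable H := (Measurable.ennreal_ofReal (by fun_prop)).indicator mK
  have p1 : ∀ x ∈ S, ∀ y ∈ S, ENNReal.ofReal (2 * (g x * g y * ‖v ((1 / 2 : ℝ) • x + (1 - 1 / 2 : ℝ) • y) - v y‖ ^ 2)) ≤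
      ENNReal.ofReal (g₁ * d ^ 2) *
        (S.indicator 1 x * ∫⁻ s in Set.Ioc (0 : ℝ) (1 / 2), H (s • x + (1 - s) • y)) := fun x hx y hy => by
    have ch : Continuous fun s : ℝ => g (s • x + (1 - s) • y) * G (s • x + (1 - s) • y) := by fun_prop
    have e : ∫⁻ s in Set.Ioc (0 : ℝ) (1 / 2), H (s • x + (1 - s) • y) =
        ENNReal.ofReal (∫ s in (0 : ℝ)..1 / 2, g (s • x + (1 - s) • y) * G (s • x + (1 - s) • y)) := by
      rw [intervalIntegral.integral_of_le (by norm_num), ofReal_integral_eq_lintegral_ofReal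
        (ch.integrableOn_Icc.mono_set Set.Ioc_subset_Icc_self)
        (Eventually.of_forall fun s => mul_nonneg (h0 _) (G0 _))]
      refine setLIntegral_congr_fun measurableSet_Ioc fun s hs => ?_
      exact Set.indicator_of_mem (hK hx.1 hy.1 hs.1.le (by linarith [hs.2]) (by ring)) _
    rw [e, Set.indicator_of_mem hx, Pi.one_apply, one_mul, ← ENNReal.ofReal_mul (by positivity),
      ← intervalIntegral.integral_const_mul]
    refine ENNReal.ofReal_le_ofReal ?_
    have gg : 0 ≤ g x * g y := mul_nonneg (h0 x) (h0 y)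
    have h2 := mul_le_mul_of_nonneg_left (E2_seg hv x y) gg
    have h3 : g x * g y * ∫ s in (0 : ℝ)..1 / 2, ‖fderiv ℝ v (s • x + (1 - s) • y) (x - y)‖ ^ 2 ≤
        ∫ s in (0 : ℝ)..1 / 2, g₁ * d ^ 2 * (g (s • x + (1 - s) • y) * G (s • x + (1 - s) • y)) := by
      rw [← intervalIntegral.integral_const_mul]
      refine intervalIntegral.integral_mono_on (by norm_num) (Continuous.intervalIntegrable (by fun_prop) _ _)
        (Continuous.intervalIntegrable (by fun_prop) _ _) fun s hs => ?_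
      have a1 : g x * g y ≤ g₁ * g (s • x + (1 - s) • y) := by
        refine le_trans ?_ (mul_le_mul_of_nonneg_left (hqc x hx.1 y hy.1 s ⟨hs.1, by linarith [hs.2]⟩) g0)
        rcases le_total (g x) (g y) with h | h
        · rw [min_eq_left h, mul_comm]
          exact mul_le_mul_of_nonneg_right (h1 y) (h0 x)
        · rw [min_eq_right h]
          exact mul_le_mul_of_nonneg_right (h1 x) (h0 y)
      have a2 := (E2_cs (fderiv ℝ v (s • x + (1 - s) • y)) A (x - y)).trans (mul_le_mul_of_nonneg_right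
        (pow_le_pow_left₀ (norm_nonneg _) (hd x hx.1 y hy.1 hx.2 hy.2) 2) (G0 _))
      exact (mul_le_mul a1 a2 (sq_nonneg _) (mul_nonneg g0 (h0 _))).trans (le_of_eq (by ring))
    linarith
  have p2 : ∀ x ∈ K, ∀ y ∈ K, ‖g x * g y * ‖v x - v y‖ ^ 2‖ₑ ≤ ENNReal.ofReal (g₁ * d ^ 2) *
      ((S.indicator 1 x * ∫⁻ s in Set.Ioc (0 : ℝ) (1 / 2), H (s • x + (1 - s) • y)) +
        S.indicator 1 y * ∫⁻ s in Set.Ioc (0 : ℝ) (1 / 2), H (s • y + (1 - s) • x)) := fun x hx y hy => by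
    by_cases gx : g x = 0
    · simp [gx]
    by_cases gy : g y = 0
    · simp [gy]
    have gg : 0 ≤ g x * g y := mul_nonneg (h0 x) (h0 y)
    rw [mul_add, Real.enorm_eq_ofReal (by positivity)]
    refine le_trans ?_ (add_le_add (p1 x ⟨hx, gx⟩ y ⟨hy, gy⟩) (p1 y ⟨hy, gy⟩ x ⟨hx, gx⟩))
    refine (ENNReal.ofReal_le_ofReal ?_).trans_eq (ENNReal.ofReal_add (by positivity) (by rw [mul_comm (g y)]; positivity))
    rw [show (1 / 2 : ℝ) • y + (1 - 1 / 2 : ℝ) • x = (1 / 2 : ℝ) • x + (1 - 1 / 2 : ℝ) • y by module, mul_comm (g y)]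
    generalize v ((1 / 2 : ℝ) • x + (1 - 1 / 2 : ℝ) • y) = m
    have a1 := pow_le_pow_left₀ (norm_nonneg _) (norm_sub_le_norm_sub_add_norm_sub (v x) m (v y)) 2
    rw [norm_sub_rev (v x) m] at a1
    have a2 : ‖v x - v y‖ ^ 2 ≤ 2 * ‖m - v y‖ ^ 2 + 2 * ‖m - v x‖ ^ 2 := by
      nlinarith [sq_nonneg (‖m - v y‖ - ‖m - v x‖)]
    nlinarith [mul_le_mul_of_nonneg_left a2 gg]
  have e : ∫⁻ y, H y = ENNReal.ofReal (∫ x in K, g x * G x) := by
    rw [hH, lintegral_indicator mK, ofReal_integral_eq_lintegral_ofReal (f := fun x => g x * G x)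
      ((hg.mul cG).continuousOn.integrableOn_compact hKc) (Eventually.of_forall fun s => mul_nonneg (h0 _) (G0 _))]
  have I0 : 0 ≤ ∫ x in K, g x * G x := integral_nonneg fun s => mul_nonneg (h0 _) (G0 _)
  have fin : volume S ≠ ⊤ := ((measure_mono Set.inter_subset_left).trans_lt hKc.measure_lt_top).ne
  refine (ENNReal.ofReal_le_ofReal_iff (by positivity)).1 ?_
  refine (Real.ofReal_le_enorm _).trans ((enorm_integral_le_lintegral_enorm _).trans ?_)
  refine (setLIntegral_mono' mK fun x hx => (enorm_integral_le_lintegral_enorm _).trans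
    ((setLIntegral_mono' mK (p2 x hx)).trans (setLIntegral_le_lintegral _ _))).trans
    ((setLIntegral_le_lintegral _ _).trans ?_)
  simp only [lintegral_const_mul' _ _ ENNReal.ofReal_ne_top]
  refine (mul_le_mul_right (E2_double mH mS) _).trans (le_of_eq ?_)
  rw [e, show (2 : ℝ) ^ (Module.finrank ℝ Y + 1) * g₁ * d ^ 2 * (volume S).toReal * ∫ x in K, g x * G x =
    g₁ * d ^ 2 * (2 ^ (Module.finrank ℝ Y + 1) * (volume S).toReal * ∫ x in K, g x * G x) by ring,
    ENNReal.ofReal_mul (p := g₁ * d ^ 2) (by positivity), ENNReal.ofReal_mul (p := 2 ^ _ * _) (by positivity),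
    ENNReal.ofReal_mul (p := 2 ^ _) (by positivity), ENNReal.ofReal_toReal fin, ENNReal.ofReal_pow two_pos.le,
    ENNReal.ofReal_ofNat]

end Crest.Agent.R330

end
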