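import Crest.Agent.R330.G.A

/-! # Row 330, G/F (statements frozen; see `R330/Blueprint.lean`) -/

set_option autoImplicit false
set_option linter.unusedSectionVars false

noncomputable section

open MeasureTheory Filter Topology
open scoped InnerProductSpace ContDiff Matrix

namespace Crest.Agent.R330

variable {Y Θ F : Type} [NormedAddCommGroup Y] [InnerProductSpace ℝ Y] [FiniteDimensional ℝ Y]
  [MeasurableSpace Y] [BorelSpace Y]
  [NormedAddCommGroup Θ] [InnerProductSpace ℝ Θ] [FiniteDimensional ℝ Θ]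
  [NormedAddCommGroup F] [InnerProductSpace ℂ F] [FiniteDimensional ℂ F]

/-! ### G3: smooth parametric integrals, cut-offs -/

section gf
variable {K P X : Type} [MeasurableSpace K] [NormedAddCommGroup P] [NormedSpace ℝ P]
  [FiniteDimensional ℝ P] [NormedAddCommGroup X] [NormedSpace ℝ X] [FiniteDimensional ℝ X]
  {μ : Measure K} [IsFiniteMeasure μ] {a : K → P} {R : ℝ}

theorem gf_int {W : Type} [NormedAddCommGroup W] (ha : AEStronglyMeasurable a μ)
    (hR : ∀ᵐ k ∂μ, ‖a k‖ ≤ R) {g : P × X → W} (hg : Continuous g) (x : X) :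
    Integrable (fun k => g (a k, x)) μ := by
  obtain ⟨M, hM⟩ := (isCompact_closedBall (0 : P) R).exists_bound_of_continuousOn
    (f := fun p => g (p, x)) (by fun_prop)
  exact (integrable_const M).mono'
    ((show Continuous fun p => g (p, x) by fun_prop).comp_aestronglyMeasurable ha)
    (hR.mono fun k hk => hM _ (mem_closedBall_zero_iff.2 hk))

theorem gf_deriv {W : Type} [NormedAddCommGroup W] [NormedSpace ℝ W] [CompleteSpace W]
    (ha : AEStronglyMeasurable a μ) (hR : ∀ᵐ k ∂μ, ‖a k‖ ≤ R) {g : P × X → W}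
    (hg : ContDiff ℝ ∞ g) (x : X) : HasFDerivAt (fun x => ∫ k, g (a k, x) ∂μ)
      (∫ k, (fderiv ℝ g (a k, x)).comp (ContinuousLinearMap.inr ℝ P X) ∂μ) x := by
  have hc : Continuous fun z => (fderiv ℝ g z).comp (ContinuousLinearMap.inr ℝ P X) :=
    (hg.continuous_fderiv (by simp)).clm_comp continuous_const
  obtain ⟨M, hM⟩ := ((isCompact_closedBall (0 : P) R).prod
    (isCompact_closedBall x 1)).exists_bound_of_continuousOn hc.continuousOn
  refine hasFDerivAt_integral_of_dominated_of_fderiv_le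
    (F' := fun x k => (fderiv ℝ g (a k, x)).comp (ContinuousLinearMap.inr ℝ P X))
    (Metric.closedBall_mem_nhds x one_pos)
    (Eventually.of_forall fun y => (gf_int ha hR hg.continuous y).1) (gf_int ha hR hg.continuous x)
    (gf_int ha hR hc x).1 (hR.mono fun k hk y hy => hM _ ⟨mem_closedBall_zero_iff.2 hk, hy⟩)
    (integrable_const M) (Eventually.of_forall fun k y _ => ?_)
  exact (hg.differentiable (by simp) (a k, y)).hasFDerivAt.comp y (hasFDerivAt_prodMk_right _ _)

theorem gf_smooth (ha : AEStronglyMeasurable a μ) (hR : ∀ᵐ k ∂μ, ‖a k‖ ≤ R) (n : ℕ) :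
    ∀ (W : Type) [NormedAddCommGroup W] [NormedSpace ℝ W] [CompleteSpace W] (g : P × X → W),
      ContDiff ℝ ∞ g → ContDiff ℝ n fun x => ∫ k, g (a k, x) ∂μ := by
  induction n with
  | zero =>
    intro W _ _ _ g hg
    exact contDiff_zero.2 (continuous_iff_continuousAt.2 fun x => (gf_deriv ha hR hg x).continuousAt)
  | succ n ih =>
    intro W _ _ _ g hg
    rw [Nat.cast_succ, contDiff_succ_iff_fderiv]
    refine ⟨fun x => (gf_deriv ha hR hg x).differentiableAt, by simp, ?_⟩
    rw [funext fun x => (gf_deriv ha hR hg x).fderiv]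
    exact ih _ (fun z => (fderiv ℝ g z).comp (ContinuousLinearMap.inr ℝ P X))
      ((hg.fderiv_right (m := ∞) (by simp)).clm_comp contDiff_const)

theorem gf_main {W : Type} [NormedAddCommGroup W] [NormedSpace ℝ W] [CompleteSpace W]
    (ha : AEStronglyMeasurable a μ) (hR : ∀ᵐ k ∂μ, ‖a k‖ ≤ R) {g : P × X → W}
    (hg : ContDiff ℝ ∞ g) : ContDiff ℝ ∞ (fun x => ∫ k, g (a k, x) ∂μ) ∧
      ∀ x v, fderiv ℝ (fun x => ∫ k, g (a k, x) ∂μ) x v = ∫ k, fderiv ℝ g (a k, x) (0, v) ∂μ := by
  refine ⟨contDiff_infty.2 fun n => gf_smooth ha hR n W g hg, fun x v => ?_⟩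
  rw [(gf_deriv ha hR hg x).fderiv, ContinuousLinearMap.integral_apply (gf_int ha hR
    (g := fun z => (fderiv ℝ g z).comp (ContinuousLinearMap.inr ℝ P X)) ((hg.continuous_fderiv (by simp)).clm_comp continuous_const) x)]
  rfl

end gf

/-- Averages over a compact parameter space of linear images. -/
theorem contDiff_avg {K W W' : Type} [TopologicalSpace K] [CompactSpace K] [MeasurableSpace K]
    [BorelSpace K] [NormedAddCommGroup W] [NormedSpace ℝ W] [FiniteDimensional ℝ W]
    [NormedAddCommGroup W'] [NormedSpace ℝ W'] [FiniteDimensional ℝ W']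
    (μ : Measure K) [IsFiniteMeasure μ] (A : K → Y →L[ℝ] Y) (hA : Continuous A)
    (B : K → W →L[ℝ] W') (hB : Continuous B) {h : Y → W} (hh : ContDiff ℝ ∞ h) :
    ContDiff ℝ ∞ (fun x => ∫ k, B k (h (A k x)) ∂μ) ∧
      ∀ x v, fderiv ℝ (fun x => ∫ k, B k (h (A k x)) ∂μ) x v =
        ∫ k, B k (fderiv ℝ h (A k x) (A k v)) ∂μ := by
  have hc : Continuous fun k => (A k, B k) := hA.prodMk hB
  obtain ⟨R, hR⟩ := isCompact_univ.exists_bound_of_continuousOn hc.continuousOn
  have hg : ContDiff ℝ ∞ fun z : ((Y →L[ℝ] Y) × (W →L[ℝ] W')) × Y => z.1.2 (h (z.1.1 z.2)) :=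
    contDiff_fst.snd.clm_apply (hh.comp (contDiff_fst.fst.clm_apply contDiff_snd))
  obtain ⟨h1, h2⟩ := gf_main (μ := μ) hc.aestronglyMeasurable
    (Eventually.of_forall fun k => hR k (Set.mem_univ _)) hg
  refine ⟨h1, fun x v => (h2 x v).trans (integral_congr_ae (Eventually.of_forall fun k => ?_))⟩
  have e1 := (hg.differentiable (by simp) ((A k, B k), x)).hasFDerivAt.comp x
    (hasFDerivAt_prodMk_right (𝕜 := ℝ) (A k, B k) x)
  have e2 := (B k).hasFDerivAt.comp x
    ((hh.differentiable (by simp) (A k x)).hasFDerivAt.comp x (A k).hasFDerivAt)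
  exact congrArg (fun L => L v) (e1.unique e2)

/-- Fibre integrals of a smooth compactly supported function. -/
theorem contDiff_fibre {Q W : Type} [NormedAddCommGroup Q] [NormedSpace ℝ Q]
    [FiniteDimensional ℝ Q] [NormedAddCommGroup W] [NormedSpace ℝ W] [FiniteDimensional ℝ W]
    {h : Q × Y → W} (hh : Core h) :
    Core (fun q => ∫ y, h (q, y)) ∧
      ∀ q v, fderiv ℝ (fun q => ∫ y, h (q, y)) q v = ∫ y, fderiv ℝ h (q, y) (v, 0) := by
  obtain ⟨R, hR⟩ := hh.2.isCompact.isBounded.subset_closedBall 0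
  have z : ∀ {V : Type} [Zero V] {f : Q × Y → V} (z : Q × Y), Function.support f ⊆ tsupport h →
      R < ‖z‖ → f z = 0 := fun z hf hz => by
    by_contra h0
    exact absurd (mem_closedBall_zero_iff.1 (hR (hf h0))) (not_le.2 hz)
  have e : ∀ {V : Type} [NormedAddCommGroup V] [NormedSpace ℝ V] {f : Q × Y → V},
      Function.support f ⊆ tsupport h → ∀ q,
      ∫ y in Metric.closedBall (0 : Y) R, f (q, y) = ∫ y, f (q, y) := fun hf q =>
    setIntegral_eq_integral_of_forall_compl_eq_zero fun y hy => z _ hf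
      ((not_le.1 fun h' => hy (mem_closedBall_zero_iff.2 h')).trans_le (norm_snd_le (q, y)))
  have : IsFiniteMeasure (volume.restrict (Metric.closedBall (0 : Y) R)) :=
    isFiniteMeasure_restrict.2 measure_closedBall_lt_top.ne
  have hg : ContDiff ℝ ∞ fun z : Y × Q => h (z.2, z.1) := hh.1.comp (contDiff_snd.prodMk contDiff_fst)
  obtain ⟨h1, h2⟩ := gf_main (μ := volume.restrict (Metric.closedBall (0 : Y) R)) (a := id) (R := R)
    aestronglyMeasurable_id ((ae_restrict_mem measurableSet_closedBall).mono fun y hy =>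
      mem_closedBall_zero_iff.1 hy) hg
  simp only [id, e (subset_tsupport h)] at h1 h2
  refine ⟨⟨h1, HasCompactSupport.intro (isCompact_closedBall 0 R) fun q hq => ?_⟩, fun q v => ?_⟩
  · refine integral_eq_zero_of_ae (Eventually.of_forall fun y => z _ (subset_tsupport h) ?_)
    exact (not_le.1 fun h' => hq (mem_closedBall_zero_iff.2 h')).trans_le (norm_fst_le (q, y))
  · rw [h2, ← e (f := fun z => fderiv ℝ h z (v, 0)) (fun z hz => support_fderiv_subset ℝ
      fun h0 => hz (by simp only [h0, ContinuousLinearMap.zero_apply]))]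
    refine integral_congr_ae (Eventually.of_forall fun y => ?_)
    have e0 : HasFDerivAt (fun z : Y × Q => (z.2, z.1))
      ((ContinuousLinearMap.snd ℝ Y Q).prod (ContinuousLinearMap.fst ℝ Y Q)) (y, q) :=
      hasFDerivAt_snd.prodMk hasFDerivAt_fst
    have e1 := ((hh.1.differentiable (by simp) (q, y)).hasFDerivAt.comp (y, q) e0).fderiv
    exact congrArg (fun L => L (0, v)) e1

end Crest.Agent.R330

end
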