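import Crest.Agent.R330.G.A

/-! # Row 330, G/H (statements frozen; see `R330/Blueprint.lean`) -/

set_option autoImplicit false
set_option linter.unusedSectionVars false

noncomputable section

open MeasureTheory Filter Topology
open scoped InnerProductSpace ContDiff Matrix

namespace Crest.Agent.R330

variable {Y Θ F : Type} [NormedAddCommGroup Y] [InnerProductSpace ℝ Y] [FiniteDimensional ℝ Y]
  [MeasurableSpace Y] [BorelSpace Y]
  [NormedAddCommGroup Θ] [InnerProductSpace ℝ Θ] [FiniteDimensional ℝ Θ]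
  [NormedAddCommGroup F] [InnerProductSpace ℂ F] [FiniteDimensional ℂ F]

theorem gh_norm_gradient (f : Y → ℝ) (x : Y) : ‖gradient f x‖ = ‖fderiv ℝ f x‖ := by
  unfold gradient
  exact LinearIsometryEquiv.norm_map _ _

/-- A normalised radial mollifier. -/
theorem gh_mollifier {δ : ℝ} (hδ : 0 < δ) : ∃ φ : Y → ℝ, ContDiff ℝ ∞ φ ∧ HasCompactSupport φ ∧
    Function.support φ ⊆ Metric.ball 0 δ ∧ (∀ x, 0 ≤ φ x) ∧ ∫ x, φ x = 1 ∧
    ∀ x y, ‖x‖ = ‖y‖ → φ x = φ y := by
  set b : Y → ℝ := fun y => Real.smoothTransition (1 - ‖y‖ ^ 2 / δ ^ 2) with hb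
  have hbs : ContDiff ℝ ∞ b := Real.smoothTransition.contDiff.comp
    (contDiff_const.sub ((contDiff_norm_sq ℝ).div_const _))
  have hsupp : Function.support b ⊆ Metric.ball 0 δ := by
    intro y hy
    rw [mem_ball_zero_iff]
    by_contra h
    refine hy (Real.smoothTransition.zero_of_nonpos ?_)
    have h1 : δ ^ 2 ≤ ‖y‖ ^ 2 := by gcongr; exact not_lt.mp h
    have : 1 ≤ ‖y‖ ^ 2 / δ ^ 2 := by rw [le_div_iff₀ (by positivity)]; linarith
    linarith
  have hc : HasCompactSupport b :=
    HasCompactSupport.intro (isCompact_closedBall (0 : Y) δ) fun y hy => by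
      by_contra h
      exact hy (Metric.ball_subset_closedBall (hsupp h))
  have h0 : ∀ y, 0 ≤ b y := fun y => Real.smoothTransition.nonneg _
  have hpos : 0 < ∫ y, b y :=
    hbs.continuous.integral_pos_of_hasCompactSupport_nonneg_nonzero (x := 0) hc h0
      (by simp [hb])
  refine ⟨fun y => b y / ∫ y, b y, hbs.div_const _, ?_, ?_, fun y => div_nonneg (h0 y) hpos.le,
    ?_, fun x y h => by simp only [hb, h]⟩
  · exact HasCompactSupport.intro hc.isCompact fun y hy => by
      rw [image_eq_zero_of_notMem_tsupport hy, zero_div]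
  · intro y hy
    refine hsupp fun h => hy ?_
    simp only [h, zero_div]
  · rw [integral_div, div_self hpos.ne']

/-- Mollified distance to a set, invariant under all linear isometries preserving the set. -/
theorem exists_smooth_dist {S : Set Y} (hS : S.Nonempty) {δ : ℝ} (hδ : 0 < δ) :
    ∃ d : Y → ℝ, ContDiff ℝ ∞ d ∧ (∀ x, |d x - Metric.infDist x S| ≤ δ) ∧
      (∀ x, ‖gradient d x‖ ≤ 1) ∧
      ∀ R : Y →ₗᵢ[ℝ] Y, R '' S = S → ∀ x, d (R x) = d x := by
  obtain ⟨φ, hφ, hc, hs, h0, h1, hr⟩ := gh_mollifier (Y := Y) hδ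
  have hgc : Continuous fun x : Y => Metric.infDist x S := Metric.continuous_infDist_pt S
  have hL : ∀ x y : Y, |Metric.infDist x S - Metric.infDist y S| ≤ ‖x - y‖ := fun x y => by
    have := (Metric.lipschitz_infDist_pt S).dist_le_mul x y
    simpa [Real.dist_eq, dist_eq_norm] using this
  have hI : ∀ x : Y, Integrable fun t => φ t * Metric.infDist (x - t) S := fun x =>
    (hφ.continuous.mul (hgc.comp (continuous_const.sub continuous_id))).integrable_of_hasCompactSupport
      hc.mul_right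
  have hφI : Integrable φ := hφ.continuous.integrable_of_hasCompactSupport hc
  refine ⟨convolution φ (fun x => Metric.infDist x S) (ContinuousLinearMap.lsmul ℝ ℝ) volume,
    hc.contDiff_convolution_left _ hφ hgc.locallyIntegrable, fun x => ?_, fun x => ?_,
    fun R hR x => ?_⟩
  · rw [← Real.dist_eq]
    refine dist_convolution_le hδ.le hs h0 h1 hgc.aestronglyMeasurable fun y hy => ?_
    rw [Real.dist_eq]
    exact (hL y x).trans (by rw [← dist_eq_norm]; exact (Metric.mem_ball.mp hy).le)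
  · rw [gh_norm_gradient]
    have hLip : LipschitzWith 1 (convolution φ (fun x => Metric.infDist x S)
        (ContinuousLinearMap.lsmul ℝ ℝ) volume) := by
      refine LipschitzWith.of_dist_le_mul fun x y => ?_
      simp only [convolution_lsmul, smul_eq_mul, NNReal.coe_one, one_mul, Real.dist_eq]
      rw [← integral_sub (hI x) (hI y), ← Real.norm_eq_abs]
      refine (norm_integral_le_of_norm_le (hφI.mul_const (dist x y))
        (Eventually.of_forall fun t => ?_)).trans ?_
      · rw [← mul_sub, norm_mul, Real.norm_of_nonneg (h0 t), Real.norm_eq_abs]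
        refine mul_le_mul_of_nonneg_left ((hL _ _).trans (le_of_eq ?_)) (h0 t)
        rw [dist_eq_norm]
        congr 1
        abel
      · rw [integral_mul_const, h1, one_mul]
    simpa using norm_fderiv_le_of_lipschitz ℝ hLip
  · simp only [convolution_lsmul, smul_eq_mul]
    set R' : Y ≃ₗᵢ[ℝ] Y := R.toLinearIsometryEquiv rfl with hR'
    rw [← R'.measurePreserving.integral_comp R'.toHomeomorph.measurableEmbedding]
    refine integral_congr_ae (Eventually.of_forall fun t => ?_)
    have e : R' t = R t := rfl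
    simp only [e]
    rw [hr (R t) t (R.norm_map t), ← map_sub]
    congr 1
    conv_lhs => rw [← hR]
    exact Metric.infDist_image R.isometry

/-- A smooth pair `f² + g² = 1` switching on `[0, 1]`. -/
theorem exists_fg : ∃ f g : ℝ → ℝ, ∃ b : ℝ, ContDiff ℝ ∞ f ∧ ContDiff ℝ ∞ g ∧
    (∀ t, f t ^ 2 + g t ^ 2 = 1) ∧ (∀ t, t ≤ 0 → g t = 0) ∧ (∀ t, 1 ≤ t → f t = 0) ∧
    (∀ t, 0 ≤ f t ∧ 0 ≤ g t) ∧ (∀ t, deriv f t ^ 2 + deriv g t ^ 2 ≤ b) ∧
    ∀ t, t < 0 ∨ 1 < t → deriv f t = 0 ∧ deriv g t = 0 := by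
  set s : ℝ → ℝ := fun t => Real.pi / 2 * Real.smoothTransition t with hs
  have hss : ContDiff ℝ ∞ s := contDiff_const.mul Real.smoothTransition.contDiff
  have hf : ContDiff ℝ ∞ fun t => Real.cos (s t) := hss.cos
  have hg : ContDiff ℝ ∞ fun t => Real.sin (s t) := hss.sin
  have hz : ∀ t, t < 0 ∨ 1 < t →
      deriv (fun t => Real.cos (s t)) t = 0 ∧ deriv (fun t => Real.sin (s t)) t = 0 := by
    intro t ht
    obtain ⟨a, ha⟩ : ∃ a, ∀ᶠ r in 𝓝 t, s r = a := by
      rcases ht with ht | ht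
      · exact ⟨0, (eventually_lt_nhds ht).mono fun r hr => by
          simp [hs, Real.smoothTransition.zero_of_nonpos hr.le]⟩
      · exact ⟨Real.pi / 2, (eventually_gt_nhds ht).mono fun r hr => by
          simp [hs, Real.smoothTransition.one_of_one_le hr.le]⟩
    constructor
    · rw [Filter.EventuallyEq.deriv_eq (f := fun _ => Real.cos a) (ha.mono fun r hr => by
        simp only [hr]), deriv_const]
    · rw [Filter.EventuallyEq.deriv_eq (f := fun _ => Real.sin a) (ha.mono fun r hr => by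
        simp only [hr]), deriv_const]
  have hc : Continuous fun t => deriv (fun t => Real.cos (s t)) t ^ 2 +
      deriv (fun t => Real.sin (s t)) t ^ 2 :=
    ((hf.continuous_deriv (by simp)).pow 2).add ((hg.continuous_deriv (by simp)).pow 2)
  obtain ⟨b, hb⟩ := (isCompact_Icc (a := (0 : ℝ)) (b := 1)).exists_bound_of_continuousOn
    hc.continuousOn
  refine ⟨fun t => Real.cos (s t), fun t => Real.sin (s t), max b 0, hf, hg,
    fun t => Real.cos_sq_add_sin_sq _, fun t ht => ?_, fun t ht => ?_, fun t => ?_, fun t => ?_, hz⟩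
  · simp [hs, Real.smoothTransition.zero_of_nonpos ht]
  · simp [hs, Real.smoothTransition.one_of_one_le ht]
  · have h0 := Real.smoothTransition.nonneg t
    have h1 := Real.smoothTransition.le_one t
    have hp := Real.pi_pos
    have a0 : 0 ≤ s t := by simp only [hs]; positivity
    have a1 : s t ≤ Real.pi / 2 := mul_le_of_le_one_right (by positivity) h1
    exact ⟨Real.cos_nonneg_of_neg_pi_div_two_le_of_le (by linarith) a1,
      Real.sin_nonneg_of_nonneg_of_le_pi a0 (by linarith)⟩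
  · by_cases ht : t < 0 ∨ 1 < t
    · rw [(hz t ht).1, (hz t ht).2]
      simp
    · push Not at ht
      exact ((le_abs_self _).trans (hb t ⟨ht.1, ht.2⟩)).trans (le_max_left _ _)

/-- Radial cut-offs. -/
theorem exists_radial_cutoff : ∃ b : ℝ, 0 < b ∧ ∀ r : ℝ, 0 < r → ∃ χ : Y → ℝ, ContDiff ℝ ∞ χ ∧
    HasCompactSupport χ ∧ (∀ x, 0 ≤ χ x ∧ χ x ≤ 1) ∧ (∀ x, ‖x‖ ≤ r → χ x = 1) ∧
    (∀ x, 2 * r ≤ ‖x‖ → χ x = 0) ∧ (∀ x, ‖gradient χ x‖ ≤ b / r) ∧
    (∀ x, ‖x‖ < r ∨ 2 * r < ‖x‖ → gradient χ x = 0) ∧ ∀ x y, ‖x‖ = ‖y‖ → χ x = χ y := by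
  set c : Y → ℝ := fun y => Real.smoothTransition ((4 - ‖y‖ ^ 2) / 3) with hc
  have hcs : ContDiff ℝ ∞ c := Real.smoothTransition.contDiff.comp
    ((contDiff_const.sub (contDiff_norm_sq ℝ)).div_const _)
  have hc1 : ∀ y, ‖y‖ ≤ 1 → c y = 1 := fun y hy => Real.smoothTransition.one_of_one_le (by
    have : ‖y‖ ^ 2 ≤ 1 := pow_le_one₀ (norm_nonneg _) hy
    linarith)
  have hc0 : ∀ y, 2 ≤ ‖y‖ → c y = 0 := fun y hy => Real.smoothTransition.zero_of_nonpos (by
    have : 4 ≤ ‖y‖ ^ 2 := by nlinarith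
    linarith)
  have hcc : HasCompactSupport c :=
    HasCompactSupport.intro (isCompact_closedBall (0 : Y) 2) fun y hy => hc0 y (by
      rw [mem_closedBall_zero_iff] at hy; exact (not_le.mp hy).le)
  obtain ⟨b, hb⟩ := (hcs.continuous_fderiv (by simp)).bounded_above_of_compact_support
    (hcc.fderiv ℝ)
  refine ⟨max b 1, lt_of_lt_of_le one_pos (le_max_right _ _), fun r hr => ?_⟩
  have hn : ∀ x : Y, ‖r⁻¹ • x‖ = ‖x‖ / r := fun x => by
    rw [norm_smul, Real.norm_eq_abs, abs_of_pos (inv_pos.mpr hr), div_eq_inv_mul]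
  have h1 : ∀ x : Y, ‖x‖ ≤ r → c (r⁻¹ • x) = 1 := fun x hx =>
    hc1 _ (by rw [hn, div_le_one hr]; exact hx)
  have h0 : ∀ x : Y, 2 * r ≤ ‖x‖ → c (r⁻¹ • x) = 0 := fun x hx =>
    hc0 _ (by rw [hn, le_div_iff₀ hr]; exact hx)
  refine ⟨fun x => c (r⁻¹ • x), hcs.comp (contDiff_id.const_smul _), ?_,
    fun x => ⟨Real.smoothTransition.nonneg _, Real.smoothTransition.le_one _⟩, h1, h0,
    fun x => ?_, fun x hx => ?_, fun x y h => by simp only [hc, hn, h]⟩
  · exact HasCompactSupport.intro (isCompact_closedBall (0 : Y) (2 * r)) fun y hy => h0 y (by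
      rw [mem_closedBall_zero_iff] at hy; exact (not_le.mp hy).le)
  · rw [gh_norm_gradient]
    have hd : HasFDerivAt (fun x : Y => c (r⁻¹ • x))
        ((fderiv ℝ c (r⁻¹ • x)).comp (r⁻¹ • ContinuousLinearMap.id ℝ Y)) x :=
      HasFDerivAt.comp x (f := fun x : Y => r⁻¹ • x)
        (hcs.differentiable (by simp) _).hasFDerivAt ((hasFDerivAt_id x).const_smul r⁻¹)
    rw [hd.fderiv]
    refine (ContinuousLinearMap.opNorm_comp_le _ _).trans ?_
    rw [div_eq_mul_inv]
    refine mul_le_mul ((hb _).trans (le_max_left _ _)) ?_ (norm_nonneg _)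
      (zero_le_one.trans (le_max_right _ _))
    rw [norm_smul, Real.norm_eq_abs, abs_of_pos (inv_pos.mpr hr)]
    exact mul_le_of_le_one_right (by positivity) ContinuousLinearMap.norm_id_le
  · obtain ⟨a, ha⟩ : ∃ a, ∀ᶠ y in 𝓝 x, c (r⁻¹ • y) = a := by
      rcases hx with hx | hx
      · exact ⟨1, (continuous_norm.continuousAt.eventually_lt continuousAt_const hx).mono
          fun y hy => h1 y hy.le⟩
      · exact ⟨0, (continuousAt_const.eventually_lt continuous_norm.continuousAt hx).mono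
          fun y hy => h0 y hy.le⟩
    rw [Filter.EventuallyEq.gradient_eq (f := fun _ => a) ha]
    exact gradient_fun_const x a

end Crest.Agent.R330

end
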